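import Vale.Agent.P224.R2.H206.Grp

/-!
Boxes in the variables `(ρ, y)`: bounds of the features, and a subdivision given by a code.
-/

namespace Vale.Agent.P224.R2.H206

/-- a box, in units of `1 / D` -/
structure Bx where
  r0 : ℕ
  r1 : ℕ
  y0 : ℕ
  y1 : ℕ

/-- the features `a, √a, b, q₊, q₋, ρ², τ, |q|` -/
noncomputable def ftr (ρ y : ℝ) : ℕ → ℝ
  | 0 => y + (1 - ρ) ^ 2
  | 1 => √(y + (1 - ρ) ^ 2)
  | 2 => if 1 ≤ ρ then y else y + (1 - ρ) ^ 2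
  | 3 => max (ρ ^ 2 - 1) 0
  | 4 => max (-(ρ ^ 2 - 1)) 0
  | 5 => ρ ^ 2
  | 6 => y * ρ - y ^ 2 / 4
  | 7 => |ρ ^ 2 - 1|
  | _ => 0

/-- the maximum -/
def mx (a b : ℕ) : ℕ := Nat.add a (Nat.sub b a)

/-- the minimum -/
def mn (a b : ℕ) : ℕ := Nat.sub a (Nat.sub a b)

lemma le_mx_left (a b : ℕ) : a ≤ mx a b := by unfold mx; simp

lemma le_mx_right (a b : ℕ) : b ≤ mx a b := by
  unfold mx
  simp only [Nat.add_eq, Nat.sub_eq]
  omega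

/-- upper bounds of the features, in units of `1 / (4 D²)`; `s` is a bound of `√a` -/
def bHi (D : ℕ) (b : Bx) (s : ℕ) : List ℕ :=
  let dh := mx (D - b.r0) (b.r1 - D)
  let ys := mx b.y0 (mn b.y1 (2 * b.r1))
  let u := 4 * (b.r1 * b.r1 - D * D)
  let v := 4 * (D * D - b.r0 * b.r0)
  [4 * (b.y1 * D + dh * dh), s, 4 * (b.y1 * D + (D - b.r0) * (D - b.r0)), u, v, 4 * (b.r1 * b.r1),
    4 * ys * b.r1 - ys * ys, mx u v]

/-- lower bounds of the features -/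
def bLo (D : ℕ) (b : Bx) : List ℕ :=
  let dl := (D - b.r1) + (b.r0 - D)
  let u := 4 * (b.r0 * b.r0 - D * D)
  let v := 4 * (D * D - b.r1 * b.r1)
  [4 * (b.y0 * D + dl * dl), 0, 0, u, v, 4 * (b.r0 * b.r0), 0, u + v]

/-- the point `(ρ, y)` is in the box -/
def InB (D : ℕ) (b : Bx) (ρ y : ℝ) : Prop :=
  (b.r0 : ℝ) ≤ D * ρ ∧ D * ρ ≤ b.r1 ∧ (b.y0 : ℝ) ≤ D * y ∧ D * y ≤ b.y1

lemma cast_sub_ge (a b : ℕ) : (a : ℝ) - b ≤ ((a - b : ℕ) : ℝ) := by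
  rcases le_total b a with h | h
  · rw [Nat.cast_sub h]
  · have h1 : (a : ℝ) ≤ b := by exact_mod_cast h
    have h2 : (0 : ℝ) ≤ ((a - b : ℕ) : ℝ) := Nat.cast_nonneg _
    linarith

lemma ftr_nonneg {ρ y : ℝ} (hρ : 0 ≤ ρ) (hy : 0 ≤ y) (hy4 : y ≤ 4 * ρ) (i : ℕ) :
    0 ≤ ftr ρ y i := by
  have ha : 0 ≤ y + (1 - ρ) ^ 2 := by positivity
  match i with
  | 0 => exact ha
  | 1 => exact Real.sqrt_nonneg _
  | 2 =>
    show 0 ≤ if 1 ≤ ρ then y else y + (1 - ρ) ^ 2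
    split_ifs <;> assumption
  | 3 => exact le_max_right _ _
  | 4 => exact le_max_right _ _
  | 5 => exact sq_nonneg _
  | 6 =>
    show 0 ≤ y * ρ - y ^ 2 / 4
    nlinarith
  | 7 => exact abs_nonneg _
  | _ + 8 => exact le_refl _

/-- the bound of `τ` -/
lemma tau_hi {D : ℕ} {b : Bx} {ρ y : ℝ} (hy : 0 ≤ y) (h : InB D b ρ y) :
    ((4 * D * D : ℕ) : ℝ) * (y * ρ - y ^ 2 / 4) ≤
      ((4 * (mx b.y0 (mn b.y1 (2 * b.r1))) * b.r1
        - (mx b.y0 (mn b.y1 (2 * b.r1))) * (mx b.y0 (mn b.y1 (2 * b.r1))) : ℕ) : ℝ) := by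
  obtain ⟨-, h2, h3, h4⟩ := h
  obtain ⟨R, hR⟩ : ∃ R, R = (D : ℝ) * ρ := ⟨_, rfl⟩
  obtain ⟨Y, hY⟩ : ∃ Y, Y = (D : ℝ) * y := ⟨_, rfl⟩
  rw [← hR] at h2
  rw [← hY] at h3 h4
  have hD0 : (0 : ℝ) ≤ (D : ℝ) := Nat.cast_nonneg _
  have hY0 : 0 ≤ Y := by rw [hY]; positivity
  obtain ⟨ys, hys⟩ : ∃ ys, ys = mx b.y0 (mn b.y1 (2 * b.r1)) := ⟨_, rfl⟩
  rw [← hys]
  have e1 : ((4 * D * D : ℕ) : ℝ) * (y * ρ - y ^ 2 / 4) = 4 * Y * R - Y ^ 2 := by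
    rw [hR, hY]
    push_cast
    ring
  rw [e1]
  refine le_trans ?_ (cast_sub_ge _ _)
  push_cast
  have f1 : 4 * Y * R ≤ 4 * Y * b.r1 := mul_le_mul_of_nonneg_left h2 (by linarith)
  have hyy : b.y0 ≤ b.y1 := by
    have : (b.y0 : ℝ) ≤ b.y1 := h3.trans h4
    exact_mod_cast this
  have hq : (ys = b.y1 ∧ b.y1 ≤ 2 * b.r1) ∨ (ys = b.y0 ∧ 2 * b.r1 ≤ b.y0) ∨ ys = 2 * b.r1 := by
    unfold mx mn at hys
    simp only [Nat.add_eq, Nat.sub_eq] at hys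
    omega
  rcases hq with ⟨e, hc⟩ | ⟨e, hc⟩ | e
  · rw [e]
    have hc' : (b.y1 : ℝ) ≤ 2 * b.r1 := by exact_mod_cast hc
    have := mul_nonneg (sub_nonneg.2 h4) (by linarith : (0 : ℝ) ≤ 4 * b.r1 - b.y1 - Y)
    linarith
  · rw [e]
    have hc' : 2 * (b.r1 : ℝ) ≤ b.y0 := by exact_mod_cast hc
    have := mul_nonneg (sub_nonneg.2 h3) (by linarith : (0 : ℝ) ≤ b.y0 + Y - 4 * b.r1)
    linarith
  · rw [e]
    push_cast
    have := sq_nonneg (Y - 2 * b.r1)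
    linarith

/-- the bound of `a` -/
lemma a_hi {D : ℕ} {b : Bx} {ρ y : ℝ} (h : InB D b ρ y) :
    ((4 * D * D : ℕ) : ℝ) * (y + (1 - ρ) ^ 2) ≤
      ((4 * (b.y1 * D + mx (D - b.r0) (b.r1 - D) * mx (D - b.r0) (b.r1 - D)) : ℕ) : ℝ) := by
  obtain ⟨h1, h2, h3, h4⟩ := h
  obtain ⟨R, hR⟩ : ∃ R, R = (D : ℝ) * ρ := ⟨_, rfl⟩
  obtain ⟨Y, hY⟩ : ∃ Y, Y = (D : ℝ) * y := ⟨_, rfl⟩
  rw [← hR] at h1 h2
  rw [← hY] at h3 h4
  have hD0 : (0 : ℝ) ≤ (D : ℝ) := Nat.cast_nonneg _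
  have b1 := cast_sub_ge D b.r0
  have b2 := cast_sub_ge b.r1 D
  have b3 : ((D - b.r0 : ℕ) : ℝ) ≤ ((mx (D - b.r0) (b.r1 - D) : ℕ) : ℝ) := by
    exact_mod_cast le_mx_left _ _
  have b4 : ((b.r1 - D : ℕ) : ℝ) ≤ ((mx (D - b.r0) (b.r1 - D) : ℕ) : ℝ) := by
    exact_mod_cast le_mx_right _ _
  have ea : ((4 * D * D : ℕ) : ℝ) * (y + (1 - ρ) ^ 2) = 4 * (Y * D + (D - R) ^ 2) := by
    rw [hR, hY]
    push_cast
    ring
  rw [ea]
  have h5 : (D - R) ^ 2 ≤ ((mx (D - b.r0) (b.r1 - D) : ℕ) : ℝ) ^ 2 := by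
    apply sq_le_sq'
    · linarith
    · linarith
  have h6 := mul_le_mul_of_nonneg_right h4 hD0
  push_cast
  linarith

/-- the bound of `b` -/
lemma b_hi {D : ℕ} {b : Bx} {ρ y : ℝ} (h : InB D b ρ y) :
    ((4 * D * D : ℕ) : ℝ) * (if 1 ≤ ρ then y else y + (1 - ρ) ^ 2) ≤
      ((4 * (b.y1 * D + (D - b.r0) * (D - b.r0)) : ℕ) : ℝ) := by
  obtain ⟨h1, h2, h3, h4⟩ := h
  obtain ⟨R, hR⟩ : ∃ R, R = (D : ℝ) * ρ := ⟨_, rfl⟩
  obtain ⟨Y, hY⟩ : ∃ Y, Y = (D : ℝ) * y := ⟨_, rfl⟩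
  have hD0 : (0 : ℝ) ≤ (D : ℝ) := Nat.cast_nonneg _
  have ea : ((4 * D * D : ℕ) : ℝ) * (y + (1 - ρ) ^ 2) = 4 * (Y * D + (D - R) ^ 2) := by
    rw [hR, hY]
    push_cast
    ring
  rw [← hY] at h3 h4
  rw [← hR] at h1 h2
  have b1 := cast_sub_ge D b.r0
  have h6 := mul_le_mul_of_nonneg_right h4 hD0
  split_ifs with h5
  · have e1 : ((4 * D * D : ℕ) : ℝ) * y = 4 * (Y * D) := by
      rw [hY]
      push_cast
      ring
    rw [e1]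
    push_cast
    have := sq_nonneg ((D - b.r0 : ℕ) : ℝ)
    linarith
  · rw [ea]
    have h7 : R ≤ D := by
      rw [hR]
      nlinarith
    have : (D - R) ^ 2 ≤ ((D - b.r0 : ℕ) : ℝ) ^ 2 := by
      apply pow_le_pow_left₀ <;> linarith
    push_cast
    linarith

/-- the bound of `q` -/
lemma q_hi {D : ℕ} {b : Bx} {ρ y : ℝ} (hρ : 0 ≤ ρ) (h : InB D b ρ y) :
    ((4 * D * D : ℕ) : ℝ) * (ρ ^ 2 - 1) ≤ ((4 * (b.r1 * b.r1 - D * D) : ℕ) : ℝ) ∧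
    ((4 * D * D : ℕ) : ℝ) * (-(ρ ^ 2 - 1)) ≤ ((4 * (D * D - b.r0 * b.r0) : ℕ) : ℝ) ∧
    ((4 * D * D : ℕ) : ℝ) * ρ ^ 2 ≤ ((4 * (b.r1 * b.r1) : ℕ) : ℝ) := by
  obtain ⟨h1, h2, -, -⟩ := h
  obtain ⟨R, hR⟩ : ∃ R, R = (D : ℝ) * ρ := ⟨_, rfl⟩
  rw [← hR] at h1 h2
  have hD0 : (0 : ℝ) ≤ (D : ℝ) := Nat.cast_nonneg _
  have hR0 : 0 ≤ R := by rw [hR]; positivity
  have g1 : R ^ 2 ≤ (b.r1 : ℝ) * b.r1 := by nlinarith
  have g2 : (b.r0 : ℝ) * b.r0 ≤ R ^ 2 := by nlinarith [Nat.cast_nonneg (α := ℝ) b.r0]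
  have e1 : ((4 * D * D : ℕ) : ℝ) * (ρ ^ 2 - 1) = 4 * (R ^ 2 - D ^ 2) := by
    rw [hR]
    push_cast
    ring
  have e3 : ((4 * D * D : ℕ) : ℝ) * (-(ρ ^ 2 - 1)) = 4 * (D ^ 2 - R ^ 2) := by
    rw [hR]
    push_cast
    ring
  have e4 : ((4 * D * D : ℕ) : ℝ) * ρ ^ 2 = 4 * R ^ 2 := by
    rw [hR]
    push_cast
    ring
  have e2 := cast_sub_ge (b.r1 * b.r1) (D * D)
  have e5 := cast_sub_ge (D * D) (b.r0 * b.r0)
  refine ⟨?_, ?_, ?_⟩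
  · rw [e1, Nat.cast_mul]
    push_cast at e2 ⊢
    linarith
  · rw [e3, Nat.cast_mul]
    push_cast at e5 ⊢
    linarith
  · rw [e4]
    push_cast
    linarith

lemma hi_bound {D : ℕ} {b : Bx} {s : ℕ}
    (hs : nth (bHi D b s) 0 * (4 * D * D) ≤ s * s) {ρ y : ℝ} (hρ : 0 ≤ ρ) (hy : 0 ≤ y)
    (h : InB D b ρ y) (i : ℕ) : ((4 * D * D : ℕ) : ℝ) * ftr ρ y i ≤ (nth (bHi D b s) i : ℝ) := by
  obtain ⟨hu, hv, ht⟩ := q_hi hρ h
  have k0 := a_hi h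
  have hu0 : (0 : ℝ) ≤ ((4 * (b.r1 * b.r1 - D * D) : ℕ) : ℝ) := Nat.cast_nonneg _
  have hv0 : (0 : ℝ) ≤ ((4 * (D * D - b.r0 * b.r0) : ℕ) : ℝ) := Nat.cast_nonneg _
  have hmu : ((4 * (b.r1 * b.r1 - D * D) : ℕ) : ℝ)
      ≤ ((mx (4 * (b.r1 * b.r1 - D * D)) (4 * (D * D - b.r0 * b.r0)) : ℕ) : ℝ) := by
    exact_mod_cast le_mx_left _ _
  have hmv : ((4 * (D * D - b.r0 * b.r0) : ℕ) : ℝ)
      ≤ ((mx (4 * (b.r1 * b.r1 - D * D)) (4 * (D * D - b.r0 * b.r0)) : ℕ) : ℝ) := by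
    exact_mod_cast le_mx_right _ _
  match i with
  | 0 => exact k0
  | 1 =>
    show ((4 * D * D : ℕ) : ℝ) * √(y + (1 - ρ) ^ 2) ≤ (s : ℝ)
    have hq : (0 : ℝ) ≤ ((4 * D * D : ℕ) : ℝ) := Nat.cast_nonneg _
    have ha : 0 ≤ y + (1 - ρ) ^ 2 := by positivity
    have e1 : ((4 * D * D : ℕ) : ℝ) * √(y + (1 - ρ) ^ 2)
        = √(((4 * D * D : ℕ) : ℝ) ^ 2 * (y + (1 - ρ) ^ 2)) := by
      rw [Real.sqrt_mul (by positivity), Real.sqrt_sq hq]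
    rw [e1]
    apply Real.sqrt_le_iff.2
    refine ⟨Nat.cast_nonneg _, ?_⟩
    have hs' : ((nth (bHi D b s) 0 : ℕ) : ℝ) * ((4 * D * D : ℕ) : ℝ) ≤ (s : ℝ) * s := by
      exact_mod_cast hs
    have k1 : ((4 * D * D : ℕ) : ℝ) * (y + (1 - ρ) ^ 2) ≤ ((nth (bHi D b s) 0 : ℕ) : ℝ) := k0
    have := mul_le_mul_of_nonneg_right k1 hq
    nlinarith
  | 2 => exact b_hi h
  | 3 =>
    show ((4 * D * D : ℕ) : ℝ) * max (ρ ^ 2 - 1) 0 ≤ ((4 * (b.r1 * b.r1 - D * D) : ℕ) : ℝ)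
    rw [mul_max_of_nonneg _ _ (Nat.cast_nonneg _)]
    exact max_le hu (by rw [mul_zero]; exact hu0)
  | 4 =>
    show ((4 * D * D : ℕ) : ℝ) * max (-(ρ ^ 2 - 1)) 0 ≤ ((4 * (D * D - b.r0 * b.r0) : ℕ) : ℝ)
    rw [mul_max_of_nonneg _ _ (Nat.cast_nonneg _)]
    exact max_le hv (by rw [mul_zero]; exact hv0)
  | 5 => exact ht
  | 6 => exact tau_hi hy h
  | 7 =>
    show ((4 * D * D : ℕ) : ℝ) * |ρ ^ 2 - 1| ≤
      ((mx (4 * (b.r1 * b.r1 - D * D)) (4 * (D * D - b.r0 * b.r0)) : ℕ) : ℝ)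
    rcases abs_cases (ρ ^ 2 - 1) with ⟨e, -⟩ | ⟨e, -⟩
    · rw [e]
      exact hu.trans hmu
    · rw [e]
      exact hv.trans hmv
  | k + 8 =>
    show ((4 * D * D : ℕ) : ℝ) * 0 ≤ ((nth (bHi D b s) (k + 8) : ℕ) : ℝ)
    rw [mul_zero]
    exact Nat.cast_nonneg _

lemma lo_bound {D : ℕ} {b : Bx} {ρ y : ℝ} (hρ : 0 ≤ ρ) (hy : 0 ≤ y) (hy4 : y ≤ 4 * ρ)
    (h : InB D b ρ y) (i : ℕ) : (nth (bLo D b) i : ℝ) ≤ ((4 * D * D : ℕ) : ℝ) * ftr ρ y i := by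
  have h0 := ftr_nonneg hρ hy hy4 i
  obtain ⟨h1, h2, h3, h4⟩ := h
  obtain ⟨R, hR⟩ : ∃ R, R = (D : ℝ) * ρ := ⟨_, rfl⟩
  obtain ⟨Y, hY⟩ : ∃ Y, Y = (D : ℝ) * y := ⟨_, rfl⟩
  rw [← hR] at h1 h2
  rw [← hY] at h3 h4
  have hD0 : (0 : ℝ) ≤ (D : ℝ) := Nat.cast_nonneg _
  have hR0 : 0 ≤ R := by rw [hR]; positivity
  have hr0 : (0 : ℝ) ≤ (b.r0 : ℝ) := Nat.cast_nonneg _
  have hr1 : (0 : ℝ) ≤ (b.r1 : ℝ) := Nat.cast_nonneg _
  have hrr : b.r0 ≤ b.r1 := by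
    have : (b.r0 : ℝ) ≤ b.r1 := h1.trans h2
    exact_mod_cast this
  have hu : ((4 * (b.r0 * b.r0 - D * D) : ℕ) : ℝ) ≤ ((4 * D * D : ℕ) : ℝ) * max (ρ ^ 2 - 1) 0 := by
    rw [mul_max_of_nonneg _ _ (Nat.cast_nonneg _)]
    have e1 : ((4 * D * D : ℕ) : ℝ) * (ρ ^ 2 - 1) = 4 * (R ^ 2 - D ^ 2) := by
      rw [hR]
      push_cast
      ring
    rcases le_total (D * D) (b.r0 * b.r0) with hc | hc
    · refine le_trans ?_ (le_max_left _ _)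
      rw [e1, Nat.cast_mul, Nat.cast_sub hc]
      push_cast
      nlinarith
    · refine le_trans ?_ (le_max_right _ _)
      rw [Nat.sub_eq_zero_of_le hc]
      simp
  have hv : ((4 * (D * D - b.r1 * b.r1) : ℕ) : ℝ)
      ≤ ((4 * D * D : ℕ) : ℝ) * max (-(ρ ^ 2 - 1)) 0 := by
    rw [mul_max_of_nonneg _ _ (Nat.cast_nonneg _)]
    have e1 : ((4 * D * D : ℕ) : ℝ) * (-(ρ ^ 2 - 1)) = 4 * (D ^ 2 - R ^ 2) := by
      rw [hR]
      push_cast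
      ring
    rcases le_total (b.r1 * b.r1) (D * D) with hc | hc
    · refine le_trans ?_ (le_max_left _ _)
      rw [e1, Nat.cast_mul, Nat.cast_sub hc]
      push_cast
      nlinarith
    · refine le_trans ?_ (le_max_right _ _)
      rw [Nat.sub_eq_zero_of_le hc]
      simp
  match i with
  | 0 =>
    show ((4 * (b.y0 * D + ((D - b.r1) + (b.r0 - D)) * ((D - b.r1) + (b.r0 - D))) : ℕ) : ℝ)
      ≤ ((4 * D * D : ℕ) : ℝ) * (y + (1 - ρ) ^ 2)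
    have ea : ((4 * D * D : ℕ) : ℝ) * (y + (1 - ρ) ^ 2) = 4 * (Y * D + (D - R) ^ 2) := by
      rw [hR, hY]
      push_cast
      ring
    rw [ea]
    rcases le_total b.r1 D with hc | hc
    · have e2 : b.r0 - D = 0 := by omega
      rw [e2, add_zero]
      push_cast [Nat.cast_sub hc]
      have : (b.r1 : ℝ) ≤ D := by exact_mod_cast hc
      nlinarith
    · rcases le_total D b.r0 with hc2 | hc2
      · have e2 : D - b.r1 = 0 := by omega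
        rw [e2, zero_add]
        push_cast [Nat.cast_sub hc2]
        have : (D : ℝ) ≤ b.r0 := by exact_mod_cast hc2
        nlinarith
      · have e2 : D - b.r1 = 0 := by omega
        have e3 : b.r0 - D = 0 := by omega
        rw [e2, e3]
        push_cast
        nlinarith [sq_nonneg (D - R)]
  | 1 =>
    show ((0 : ℕ) : ℝ) ≤ _
    rw [Nat.cast_zero]
    exact mul_nonneg (Nat.cast_nonneg _) h0
  | 2 =>
    show ((0 : ℕ) : ℝ) ≤ _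
    rw [Nat.cast_zero]
    exact mul_nonneg (Nat.cast_nonneg _) h0
  | 3 => exact hu
  | 4 => exact hv
  | 5 =>
    show ((4 * (b.r0 * b.r0) : ℕ) : ℝ) ≤ ((4 * D * D : ℕ) : ℝ) * ρ ^ 2
    have e1 : ((4 * D * D : ℕ) : ℝ) * ρ ^ 2 = 4 * R ^ 2 := by
      rw [hR]
      push_cast
      ring
    rw [e1]
    push_cast
    nlinarith
  | 6 =>
    show ((0 : ℕ) : ℝ) ≤ _
    rw [Nat.cast_zero]
    exact mul_nonneg (Nat.cast_nonneg _) h0
  | 7 =>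
    show ((4 * (b.r0 * b.r0 - D * D) + 4 * (D * D - b.r1 * b.r1) : ℕ) : ℝ)
      ≤ ((4 * D * D : ℕ) : ℝ) * |ρ ^ 2 - 1|
    have hq : (0 : ℝ) ≤ ((4 * D * D : ℕ) : ℝ) := Nat.cast_nonneg _
    have m1 : ((4 * D * D : ℕ) : ℝ) * max (ρ ^ 2 - 1) 0 ≤ ((4 * D * D : ℕ) : ℝ) * |ρ ^ 2 - 1| :=
      mul_le_mul_of_nonneg_left (max_le (le_abs_self _) (abs_nonneg _)) hq
    have m2 : ((4 * D * D : ℕ) : ℝ) * max (-(ρ ^ 2 - 1)) 0 ≤ ((4 * D * D : ℕ) : ℝ) * |ρ ^ 2 - 1| :=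
      mul_le_mul_of_nonneg_left (max_le (neg_le_abs _) (abs_nonneg _)) hq
    rcases le_total b.r0 D with hc | hc
    · have e2 : b.r0 * b.r0 - D * D = 0 := Nat.sub_eq_zero_of_le (Nat.mul_le_mul hc hc)
      rw [e2]
      simp only [mul_zero, zero_add]
      exact hv.trans m2
    · have e2 : D * D - b.r1 * b.r1 = 0 :=
        Nat.sub_eq_zero_of_le (Nat.mul_le_mul (hc.trans hrr) (hc.trans hrr))
      rw [e2]
      simp only [mul_zero, add_zero]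
      exact hu.trans m1
  | k + 8 =>
    have e1 : nth (bLo D b) (k + 8) = 0 := by simp [bLo, nth]
    rw [e1]
    show ((0 : ℕ) : ℝ) ≤ _
    rw [Nat.cast_zero]
    exact mul_nonneg (Nat.cast_nonneg _) h0

/-- the parameters of the subdivision: `m2` the largest dimension, `a0` the size of the small
region in units of `1 / (4 D²)` -/
structure Pr where
  D : ℕ
  m2 : ℕ
  a0 : ℕ

/-- the check of a leaf with the witness `s` of the root -/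
def leafOK (T : Tb) (p : Pr) (b : Bx) (s : ℕ) : Bool :=
  and (Nat.ble (Nat.mul (nth (bHi p.D b s) 0) T.Q) (Nat.mul s s))
    (T.chk (bHi p.D b s) (bLo p.D b)
      (Nat.div (Nat.mul (Nat.mul T.E T.E) (Nat.mul p.m2 (nth (bHi p.D b s) 6))) T.Q + 1))

/-- the halves of a box -/
def Bx.lf (b : Bx) : Bx := ⟨b.r0, Nat.div (Nat.add b.r0 b.r1) 2, b.y0, b.y1⟩
def Bx.rt (b : Bx) : Bx := ⟨Nat.div (Nat.add b.r0 b.r1) 2, b.r1, b.y0, b.y1⟩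
def Bx.bo (b : Bx) : Bx := ⟨b.r0, b.r1, b.y0, Nat.div (Nat.add b.y0 b.y1) 2⟩
def Bx.to (b : Bx) : Bx := ⟨b.r0, b.r1, Nat.div (Nat.add b.y0 b.y1) 2, b.y1⟩

/-- the box is outside of the domain or in the small region -/
def Bx.out (p : Pr) (b : Bx) : Bool :=
  or (Nat.ble (Nat.add (Nat.mul 4 b.r1) 1) b.y0) (Nat.ble (nth (bHi p.D b 0) 0) p.a0)

/-- run the code: `0` halves the first side, `1` the second side, `2` closes a box outside of the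
domain or in the small region, `s + 3` closes a box by the check -/
def run (T : Tb) (p : Pr) : List ℕ → List Bx → Bool
  | [], [] => true
  | [], _ :: _ => false
  | _ :: _, [] => false
  | c :: cs, b :: st =>
    cond (Nat.ble c 1)
      (cond (Nat.beq c 0) (run T p cs (b.lf :: b.rt :: st)) (run T p cs (b.bo :: b.to :: st)))
      (cond (Nat.beq c 2) (and (b.out p) (run T p cs st))
        (and (leafOK T p b (Nat.sub c 3)) (run T p cs st)))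

section

variable {T : Tb} {p : Pr} {P N : List TQ}

lemma leaf_sound (hT : T.ok P N = true) (hD : 0 < p.D) (hQ : T.Q = 4 * p.D * p.D) {b : Bx} {s : ℕ}
    (h : leafOK T p b s = true) {ρ y φ : ℝ} (hρ : 0 ≤ ρ) (hy : 0 ≤ y) (hy4 : y ≤ 4 * ρ)
    (hb : InB p.D b ρ y) (hφ : 0 ≤ φ) (hm : φ ^ 2 ≤ p.m2 * (y * ρ - y ^ 2 / 4)) :
    evQ (ftr ρ y) φ N ≤ evQ (ftr ρ y) φ P := by
  unfold leafOK at h
  simp only [Bool.and_eq_true, Nat.ble_eq, Nat.mul_eq] at h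
  obtain ⟨h1, h2⟩ := h
  rw [hQ] at h1
  have hhi := hi_bound h1 hρ hy hb
  have hlo := lo_bound hρ hy hy4 hb
  refine T.chk_sound hT h2 (ftr_nonneg hρ hy hy4) (by rw [hQ]; exact hlo) (by rw [hQ]; exact hhi)
    hφ ?_
  have h6 : ((4 * p.D * p.D : ℕ) : ℝ) * (y * ρ - y ^ 2 / 4) ≤ (nth (bHi p.D b s) 6 : ℝ) := hhi 6
  have hQ0 : (0 : ℝ) < ((T.Q : ℕ) : ℝ) := by
    rw [hQ]
    have : 0 < 4 * p.D * p.D := by positivity
    exact_mod_cast this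
  rw [← hQ] at h6
  obtain ⟨A, hA⟩ : ∃ A, A = T.E * T.E * (p.m2 * nth (bHi p.D b s) 6) := ⟨_, rfl⟩
  have h7 : A < (A / T.Q + 1) * T.Q := by
    have hQn : 0 < T.Q := by exact_mod_cast hQ0
    have := Nat.lt_div_mul_add (a := A) (b := T.Q) hQn
    rw [add_mul, one_mul]
    exact this
  have h8 : (A : ℝ) ≤ ((A / T.Q + 1 : ℕ) : ℝ) * (T.Q : ℝ) := by exact_mod_cast h7.le
  rw [div_def', ← hA]
  refine le_of_mul_le_mul_right (le_trans ?_ h8) hQ0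
  rw [hA, mul_pow]
  push_cast
  have hE : (0 : ℝ) ≤ (T.E : ℝ) * T.E := by positivity
  have hm2 : (0 : ℝ) ≤ (p.m2 : ℝ) := Nat.cast_nonneg _
  have h9 : φ ^ 2 * T.Q ≤ p.m2 * (nth (bHi p.D b s) 6 : ℝ) := by
    have := mul_le_mul_of_nonneg_right hm hQ0.le
    have h10 := mul_le_mul_of_nonneg_left h6 hm2
    nlinarith
  have := mul_le_mul_of_nonneg_left h9 hE
  nlinarith

/-- **soundness of the subdivision** -/
theorem run_sound (hT : T.ok P N = true) (hD : 0 < p.D) (hQ : T.Q = 4 * p.D * p.D)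
    {Z : ℝ → ℝ → ℝ → Prop}
    (hleaf : ∀ ρ y φ : ℝ, 0 ≤ ρ → 0 ≤ y → y ≤ 4 * ρ → 0 ≤ φ →
      φ ^ 2 ≤ p.m2 * (y * ρ - y ^ 2 / 4) → evQ (ftr ρ y) φ N ≤ evQ (ftr ρ y) φ P → Z ρ y φ)
    (hsm : ∀ ρ y φ : ℝ, 0 ≤ ρ → 0 ≤ y → y ≤ 4 * ρ → 0 ≤ φ →
      φ ^ 2 ≤ p.m2 * (y * ρ - y ^ 2 / 4) → (T.Q : ℝ) * (y + (1 - ρ) ^ 2) ≤ p.a0 → Z ρ y φ)
    (cs : List ℕ) : ∀ {st : List Bx}, run T p cs st = true → ∀ b ∈ st, ∀ ρ y φ : ℝ,
      InB p.D b ρ y → 0 ≤ ρ → 0 ≤ y → y ≤ 4 * ρ → 0 ≤ φ →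
      φ ^ 2 ≤ p.m2 * (y * ρ - y ^ 2 / 4) → Z ρ y φ := by
  induction cs with
  | nil =>
    intro st h b hb
    cases st with
    | nil => simp at hb
    | cons b st => simp [run] at h
  | cons c cs ih =>
    intro st h b hb ρ y φ hin hρ hy hy4 hφ hm
    cases st with
    | nil => simp at hb
    | cons b' st =>
      unfold run at h
      cases hc : Nat.ble c 1 with
      | true =>
        rw [hc, cond_true] at h
        cases hc0 : Nat.beq c 0 with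
        | true =>
          rw [hc0, cond_true] at h
          rcases List.mem_cons.1 hb with rfl | hb
          · obtain ⟨i1, i2, i3, i4⟩ := hin
            rcases le_total (p.D * ρ) ((Nat.div (Nat.add b.r0 b.r1) 2 : ℕ) : ℝ) with hx | hx
            · exact ih h b.lf (by simp) ρ y φ ⟨i1, hx, i3, i4⟩ hρ hy hy4 hφ hm
            · exact ih h b.rt (by simp) ρ y φ ⟨hx, i2, i3, i4⟩ hρ hy hy4 hφ hm
          · exact ih h b (by simp [hb]) ρ y φ hin hρ hy hy4 hφ hm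
        | false =>
          rw [hc0, cond_false] at h
          rcases List.mem_cons.1 hb with rfl | hb
          · obtain ⟨i1, i2, i3, i4⟩ := hin
            rcases le_total (p.D * y) ((Nat.div (Nat.add b.y0 b.y1) 2 : ℕ) : ℝ) with hx | hx
            · exact ih h b.bo (by simp) ρ y φ ⟨i1, i2, i3, hx⟩ hρ hy hy4 hφ hm
            · exact ih h b.to (by simp) ρ y φ ⟨i1, i2, hx, i4⟩ hρ hy hy4 hφ hm
          · exact ih h b (by simp [hb]) ρ y φ hin hρ hy hy4 hφ hm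
      | false =>
        rw [hc, cond_false] at h
        cases hc2 : Nat.beq c 2 with
        | true =>
          rw [hc2, cond_true] at h
          simp only [Bx.out, Bool.and_eq_true, Bool.or_eq_true, Nat.ble_eq, Nat.add_eq,
            Nat.mul_eq] at h
          obtain ⟨h1, h2⟩ := h
          rcases List.mem_cons.1 hb with rfl | hb
          · rcases h1 with h1 | h1
            · exfalso
              obtain ⟨i1, i2, i3, i4⟩ := hin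
              have h3 : ((4 * b.r1 + 1 : ℕ) : ℝ) ≤ (b.y0 : ℝ) := by exact_mod_cast h1
              push_cast at h3
              have hD' : (0 : ℝ) < p.D := by exact_mod_cast hD
              nlinarith
            · refine hsm ρ y φ hρ hy hy4 hφ hm ?_
              have h3 : ((nth (bHi p.D b 0) 0 : ℕ) : ℝ) ≤ p.a0 := by exact_mod_cast h1
              refine le_trans ?_ h3
              rw [hQ]
              exact a_hi hin
          · exact ih h2 b hb ρ y φ hin hρ hy hy4 hφ hm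
        | false =>
          rw [hc2, cond_false] at h
          simp only [Bool.and_eq_true] at h
          obtain ⟨h1, h2⟩ := h
          rcases List.mem_cons.1 hb with rfl | hb
          · exact hleaf ρ y φ hρ hy hy4 hφ hm (leaf_sound hT hD hQ h1 hρ hy hy4 hin hφ hm)
          · exact ih h2 b hb ρ y φ hin hρ hy hy4 hφ hm

end

end Vale.Agent.P224.R2.H206
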