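import Mathlib

/-!
Polynomials in nonnegative features with nonnegative coefficients: bounds from natural bounds of the
features.
-/

namespace Vale.Agent.P224.R2.H206

/-- lookup in a list, zero outside -/
def nth : List ℕ → ℕ → ℕ
  | [], _ => 0
  | x :: _, 0 => x
  | _ :: l, i + 1 => nth l i

/-- a term: coefficient, factors `(feature, exponent)`, missing degree -/
structure TN where
  c : ℕ
  e : List (ℕ × ℕ)
  d : ℕ

/-- the product of the factors -/
def prd (F : List ℕ) : List (ℕ × ℕ) → ℕ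
  | [] => 1
  | p :: l => Nat.mul (Nat.pow (nth F p.1) p.2) (prd F l)

/-- a sum of terms, homogenised with `Q` -/
def sumT (Q : ℕ) (F : List ℕ) : List TN → ℕ
  | [] => 0
  | t :: l => Nat.add (Nat.mul t.c (Nat.mul (prd F t.e) (Nat.pow Q t.d))) (sumT Q F l)

/-- the coefficients in `φ` -/
def polyT (Q : ℕ) (F : List ℕ) : List (List TN) → List ℕ
  | [] => []
  | l :: L => sumT Q F l :: polyT Q F L

/-- the degree of the factors -/
def degE : List (ℕ × ℕ) → ℕ
  | [] => 0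
  | p :: l => p.2 + degE l

/-- the degrees are complete -/
def degOK (dm : ℕ) (L : List (List TN)) : Bool :=
  L.all (fun l => l.all (fun t => degE t.e + t.d == dm))

/-- the product of the factors, real -/
noncomputable def prR (x : ℕ → ℝ) : List (ℕ × ℕ) → ℝ
  | [] => 1
  | p :: l => x p.1 ^ p.2 * prR x l

/-- a sum of terms, real -/
noncomputable def sumR (x : ℕ → ℝ) : List TN → ℝ
  | [] => 0
  | t :: l => (t.c : ℝ) * prR x t.e + sumR x l

/-- the polynomial in `φ`, real -/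
noncomputable def evR (x : ℕ → ℝ) (φ : ℝ) : List (List TN) → ℝ
  | [] => 0
  | l :: L => sumR x l + φ * evR x φ L

/-- a polynomial with natural coefficients -/
noncomputable def evL (φ : ℝ) : List ℕ → ℝ
  | [] => 0
  | c :: L => (c : ℝ) + φ * evL φ L

lemma prR_nonneg {x : ℕ → ℝ} (hx : ∀ i, 0 ≤ x i) (l : List (ℕ × ℕ)) : 0 ≤ prR x l := by
  induction l with
  | nil => simp [prR]
  | cons p l ih =>
    simp only [prR]
    have := hx p.1
    positivity

lemma sumR_nonneg {x : ℕ → ℝ} (hx : ∀ i, 0 ≤ x i) (l : List TN) : 0 ≤ sumR x l := by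
  induction l with
  | nil => simp [sumR]
  | cons p l ih =>
    simp only [sumR]
    have := prR_nonneg hx p.e
    positivity

lemma prd_le {Q : ℕ} (hQ : 0 < Q) {F : List ℕ} {x : ℕ → ℝ} (hx : ∀ i, 0 ≤ x i)
    (h : ∀ i, (nth F i : ℝ) ≤ Q * x i) (l : List (ℕ × ℕ)) :
    ((prd F l : ℕ) : ℝ) ≤ (Q : ℝ) ^ degE l * prR x l := by
  induction l with
  | nil => simp [prd, degE, prR]
  | cons p l ih =>
    have hp := prR_nonneg hx l
    have h1 : ((nth F p.1 : ℕ) : ℝ) ^ p.2 ≤ (Q * x p.1) ^ p.2 :=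
      pow_le_pow_left₀ (Nat.cast_nonneg _) (h _) _
    have h2 := mul_le_mul h1 ih (Nat.cast_nonneg _) (pow_nonneg (by have := hx p.1; positivity) _)
    simp only [prd, degE, prR, Nat.mul_eq, Nat.pow_eq, Nat.cast_mul, Nat.cast_pow]
    refine h2.trans (le_of_eq ?_)
    rw [mul_pow, pow_add]
    ring

lemma le_prd {Q : ℕ} (hQ : 0 < Q) {F : List ℕ} {x : ℕ → ℝ} (hx : ∀ i, 0 ≤ x i)
    (h : ∀ i, Q * x i ≤ (nth F i : ℝ)) (l : List (ℕ × ℕ)) :
    (Q : ℝ) ^ degE l * prR x l ≤ ((prd F l : ℕ) : ℝ) := by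
  induction l with
  | nil => simp [prd, degE, prR]
  | cons p l ih =>
    have hp := prR_nonneg hx l
    have h0 := hx p.1
    have h1 : (Q * x p.1) ^ p.2 ≤ ((nth F p.1 : ℕ) : ℝ) ^ p.2 :=
      pow_le_pow_left₀ (by positivity) (h _) _
    have h2 := mul_le_mul h1 ih (by positivity) (by positivity)
    simp only [prd, degE, prR, Nat.mul_eq, Nat.pow_eq, Nat.cast_mul, Nat.cast_pow]
    refine le_trans (le_of_eq ?_) h2
    rw [mul_pow, pow_add]
    ring

lemma sumT_le {Q dm : ℕ} (hQ : 0 < Q) {F : List ℕ} {x : ℕ → ℝ} (hx : ∀ i, 0 ≤ x i)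
    (h : ∀ i, (nth F i : ℝ) ≤ Q * x i) {l : List TN}
    (hd : l.all (fun t => degE t.e + t.d == dm) = true) :
    ((sumT Q F l : ℕ) : ℝ) ≤ (Q : ℝ) ^ dm * sumR x l := by
  induction l with
  | nil => simp [sumT, sumR]
  | cons t l ih =>
    simp only [List.all_cons, Bool.and_eq_true, beq_iff_eq] at hd
    have h1 := ih hd.2
    have h2 := prd_le hQ hx h t.e
    have h3 : (t.c : ℝ) * (((prd F t.e : ℕ) : ℝ) * (Q : ℝ) ^ t.d)
        ≤ (t.c : ℝ) * (((Q : ℝ) ^ degE t.e * prR x t.e) * (Q : ℝ) ^ t.d) := by gcongr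
    simp only [sumT, sumR, Nat.add_eq, Nat.mul_eq, Nat.pow_eq, Nat.cast_add, Nat.cast_mul,
      Nat.cast_pow]
    rw [mul_add]
    refine add_le_add (h3.trans (le_of_eq ?_)) h1
    rw [← hd.1, pow_add]
    ring

lemma le_sumT {Q dm : ℕ} (hQ : 0 < Q) {F : List ℕ} {x : ℕ → ℝ} (hx : ∀ i, 0 ≤ x i)
    (h : ∀ i, Q * x i ≤ (nth F i : ℝ)) {l : List TN}
    (hd : l.all (fun t => degE t.e + t.d == dm) = true) :
    (Q : ℝ) ^ dm * sumR x l ≤ ((sumT Q F l : ℕ) : ℝ) := by
  induction l with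
  | nil => simp [sumT, sumR]
  | cons t l ih =>
    simp only [List.all_cons, Bool.and_eq_true, beq_iff_eq] at hd
    have h1 := ih hd.2
    have h2 := le_prd hQ hx h t.e
    have h3 : (t.c : ℝ) * (((Q : ℝ) ^ degE t.e * prR x t.e) * (Q : ℝ) ^ t.d)
        ≤ (t.c : ℝ) * (((prd F t.e : ℕ) : ℝ) * (Q : ℝ) ^ t.d) := by gcongr
    simp only [sumT, sumR, Nat.add_eq, Nat.mul_eq, Nat.pow_eq, Nat.cast_add, Nat.cast_mul,
      Nat.cast_pow]
    rw [mul_add]
    refine add_le_add (le_trans (le_of_eq ?_) h3) h1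
    rw [← hd.1, pow_add]
    ring

/-- lower bounds of the features give a lower bound of the polynomial -/
lemma polyT_le {Q dm : ℕ} (hQ : 0 < Q) {F : List ℕ} {x : ℕ → ℝ} (hx : ∀ i, 0 ≤ x i)
    (h : ∀ i, (nth F i : ℝ) ≤ Q * x i) {φ : ℝ} (hφ : 0 ≤ φ) {L : List (List TN)}
    (hd : degOK dm L = true) : evL φ (polyT Q F L) ≤ (Q : ℝ) ^ dm * evR x φ L := by
  induction L with
  | nil => simp [polyT, evL, evR]
  | cons l L ih =>
    unfold degOK at hd
    simp only [List.all_cons, Bool.and_eq_true] at hd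
    have h1 := sumT_le hQ hx h hd.1
    have h2 := mul_le_mul_of_nonneg_left (ih hd.2) hφ
    simp only [polyT, evL, evR]
    rw [mul_add]
    linarith

/-- upper bounds of the features give an upper bound of the polynomial -/
lemma le_polyT {Q dm : ℕ} (hQ : 0 < Q) {F : List ℕ} {x : ℕ → ℝ} (hx : ∀ i, 0 ≤ x i)
    (h : ∀ i, Q * x i ≤ (nth F i : ℝ)) {φ : ℝ} (hφ : 0 ≤ φ) {L : List (List TN)}
    (hd : degOK dm L = true) : (Q : ℝ) ^ dm * evR x φ L ≤ evL φ (polyT Q F L) := by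
  induction L with
  | nil => simp [polyT, evL, evR]
  | cons l L ih =>
    unfold degOK at hd
    simp only [List.all_cons, Bool.and_eq_true] at hd
    have h1 := le_sumT hQ hx h hd.1
    have h2 := mul_le_mul_of_nonneg_left (ih hd.2) hφ
    simp only [polyT, evL, evR]
    rw [mul_add]
    linarith

/-- **one cell** -/
theorem cell_sound {Q dm : ℕ} (hQ : 0 < Q) {Flo Fhi : List ℕ} {x : ℕ → ℝ} (hx : ∀ i, 0 ≤ x i)
    (hlo : ∀ i, (nth Flo i : ℝ) ≤ Q * x i) (hhi : ∀ i, Q * x i ≤ (nth Fhi i : ℝ)) {φ : ℝ}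
    (hφ : 0 ≤ φ) {P N : List (List TN)} (hP : degOK dm P = true) (hN : degOK dm N = true)
    (h : evL φ (polyT Q Fhi N) ≤ evL φ (polyT Q Flo P)) : evR x φ N ≤ evR x φ P := by
  have h1 := polyT_le hQ hx hlo hφ hP
  have h2 := le_polyT hQ hx hhi hφ hN
  have h3 : (Q : ℝ) ^ dm * evR x φ N ≤ (Q : ℝ) ^ dm * evR x φ P := by linarith
  have hQ' : (0 : ℝ) < (Q : ℝ) ^ dm := by
    have : (0 : ℝ) < (Q : ℝ) := by exact_mod_cast hQ
    positivity
  exact le_of_mul_le_mul_left h3 hQ'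

/-- a term with a rational coefficient and the power of `φ` -/
structure TQ where
  c : ℚ
  e : List (ℕ × ℕ)
  k : ℕ

/-- the value of a list of terms -/
noncomputable def evQ (x : ℕ → ℝ) (φ : ℝ) : List TQ → ℝ
  | [] => 0
  | t :: l => (t.c : ℝ) * prR x t.e * φ ^ t.k + evQ x φ l

lemma evQ_append (x : ℕ → ℝ) (φ : ℝ) (l l' : List TQ) :
    evQ x φ (l ++ l') = evQ x φ l + evQ x φ l' := by
  induction l with
  | nil => simp [evQ]
  | cons t l ih => simp only [List.cons_append, evQ, ih]; ring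

lemma evQ_range (x : ℕ → ℝ) (φ : ℝ) (f : ℕ → List TQ) (n : ℕ) :
    evQ x φ ((List.range n).flatMap f) = ∑ i ∈ Finset.range n, evQ x φ (f i) := by
  induction n with
  | zero => simp [evQ]
  | succ n ih => rw [List.range_succ, List.flatMap_append, evQ_append, ih, Finset.sum_range_succ]; simp

/-- insert a term in the list of lists -/
def ins (t : TN) : ℕ → List (List TN) → List (List TN)
  | 0, [] => [[t]]
  | 0, l :: L => (t :: l) :: L
  | k + 1, [] => [] :: ins t k []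
  | k + 1, l :: L => l :: ins t k L

/-- grouping by the power of `φ`, with a rounding `f` -/
def grp (f : ℚ → ℕ) (dm : ℕ) : List TQ → List (List TN)
  | [] => []
  | t :: l => ins ⟨f t.c, t.e, dm - degE t.e⟩ t.k (grp f dm l)

lemma evR_ins (x : ℕ → ℝ) (φ : ℝ) (t : TN) (k : ℕ) (L : List (List TN)) :
    evR x φ (ins t k L) = (t.c : ℝ) * prR x t.e * φ ^ k + evR x φ L := by
  induction k generalizing L with
  | zero => cases L <;> simp [ins, evR, sumR]; ring
  | succ k ih =>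
    cases L with
    | nil =>
      simp only [ins, evR, ih, sumR, pow_succ]
      ring
    | cons l L =>
      simp only [ins, evR, ih, pow_succ]
      ring

/-- the round down of a scaled rational -/
def flN (W : ℕ) (q : ℚ) : ℕ := (Nat.div (q.num.toNat * W) q.den)

/-- the round up of a scaled rational -/
def clN (W : ℕ) (q : ℚ) : ℕ := (Nat.div (q.num.toNat * W) q.den) + 1

lemma flN_le {W : ℕ} {q : ℚ} (hq : 0 ≤ q) : ((flN W q : ℕ) : ℝ) ≤ (W : ℝ) * (q : ℝ) := by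
  have hd : (0 : ℝ) < (q.den : ℝ) := by exact_mod_cast q.den_pos
  have hn : ((q.num.toNat : ℕ) : ℝ) = (q.num : ℝ) := by
    have : ((q.num.toNat : ℕ) : ℤ) = q.num := Int.toNat_of_nonneg (Rat.num_nonneg.2 hq)
    exact_mod_cast this
  have h1 : ((flN W q : ℕ) : ℝ) * (q.den : ℝ) ≤ (q.num.toNat * W : ℕ) := by
    have := Nat.div_mul_le_self (q.num.toNat * W) q.den
    exact_mod_cast this
  rw [Nat.cast_mul, hn] at h1
  have h2 : (q : ℝ) = (q.num : ℝ) / (q.den : ℝ) := by exact_mod_cast (Rat.num_div_den q).symm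
  rw [h2, mul_div_assoc', le_div_iff₀ hd]
  linarith

lemma le_clN {W : ℕ} {q : ℚ} : (W : ℝ) * (q : ℝ) ≤ ((clN W q : ℕ) : ℝ) := by
  have hd : (0 : ℝ) < (q.den : ℝ) := by exact_mod_cast q.den_pos
  have hn : (q.num : ℝ) ≤ ((q.num.toNat : ℕ) : ℝ) := by
    have : q.num ≤ ((q.num.toNat : ℕ) : ℤ) := Int.self_le_toNat _
    exact_mod_cast this
  have h1 : ((q.num.toNat * W : ℕ) : ℝ) ≤ ((clN W q : ℕ) : ℝ) * (q.den : ℝ) := by
    have := Nat.lt_div_mul_add (a := q.num.toNat * W) (b := q.den) q.den_pos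
    have h2 : q.num.toNat * W ≤ clN W q * q.den := by
      unfold clN
      rw [add_mul, one_mul]
      exact this.le
    exact_mod_cast h2
  rw [Nat.cast_mul] at h1
  have h2 : (q : ℝ) = (q.num : ℝ) / (q.den : ℝ) := by exact_mod_cast (Rat.num_div_den q).symm
  rw [h2, mul_div_assoc', div_le_iff₀ hd]
  have h3 : (W : ℝ) * (q.num : ℝ) ≤ W * ((q.num.toNat : ℕ) : ℝ) :=
    mul_le_mul_of_nonneg_left hn (Nat.cast_nonneg _)
  linarith

lemma evR_grp_le {W dm : ℕ} {x : ℕ → ℝ} (hx : ∀ i, 0 ≤ x i) {φ : ℝ} (hφ : 0 ≤ φ) {l : List TQ}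
    (h : l.all (fun t => decide (0 ≤ t.c)) = true) :
    evR x φ (grp (flN W) dm l) ≤ (W : ℝ) * evQ x φ l := by
  induction l with
  | nil => simp [grp, evR, evQ]
  | cons t l ih =>
    simp only [List.all_cons, Bool.and_eq_true, decide_eq_true_eq] at h
    have h1 := ih h.2
    have h2 := flN_le (W := W) h.1
    have h3 := prR_nonneg hx t.e
    have h4 : ((flN W t.c : ℕ) : ℝ) * prR x t.e * φ ^ t.k
        ≤ ((W : ℝ) * (t.c : ℝ)) * prR x t.e * φ ^ t.k := by gcongr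
    simp only [grp, evR_ins, evQ]
    rw [mul_add]
    linarith

lemma le_evR_grp {W dm : ℕ} {x : ℕ → ℝ} (hx : ∀ i, 0 ≤ x i) {φ : ℝ} (hφ : 0 ≤ φ) {l : List TQ} :
    (W : ℝ) * evQ x φ l ≤ evR x φ (grp (clN W) dm l) := by
  induction l with
  | nil => simp [grp, evR, evQ]
  | cons t l ih =>
    have h2 := le_clN (W := W) (q := t.c)
    have h3 := prR_nonneg hx t.e
    have h4 : ((W : ℝ) * (t.c : ℝ)) * prR x t.e * φ ^ t.k
        ≤ ((clN W t.c : ℕ) : ℝ) * prR x t.e * φ ^ t.k := by gcongr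
    simp only [grp, evR_ins, evQ]
    rw [mul_add]
    linarith

/-- **one cell, rational coefficients** -/
theorem cell_soundQ {W Q dm : ℕ} (hW : 0 < W) (hQ : 0 < Q) {Flo Fhi : List ℕ} {x : ℕ → ℝ}
    (hx : ∀ i, 0 ≤ x i) (hlo : ∀ i, (nth Flo i : ℝ) ≤ Q * x i)
    (hhi : ∀ i, Q * x i ≤ (nth Fhi i : ℝ)) {φ : ℝ} (hφ : 0 ≤ φ) {p n : List TQ}
    (hp : p.all (fun t => decide (0 ≤ t.c)) = true)
    (hP : degOK dm (grp (flN W) dm p) = true) (hN : degOK dm (grp (clN W) dm n) = true)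
    (h : evL φ (polyT Q Fhi (grp (clN W) dm n)) ≤ evL φ (polyT Q Flo (grp (flN W) dm p))) :
    evQ x φ n ≤ evQ x φ p := by
  have h1 := cell_sound hQ hx hlo hhi hφ hP hN h
  have h2 := evR_grp_le (W := W) (dm := dm) hx hφ hp
  have h3 := le_evR_grp (W := W) (dm := dm) hx hφ (l := n)
  have hW' : (0 : ℝ) < (W : ℝ) := by exact_mod_cast hW
  exact le_of_mul_le_mul_left (by linarith) hW'

end Vale.Agent.P224.R2.H206
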