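import Vale.Agent.P224.R2.H206.Lst
import Vale.Agent.P224.R2.H919.Sml
import Vale.Agent.P224.R2.H869.TlRow

/-!
The pointwise inequality of a block of dimensions from the tables, the subdivision and the check of
the small region.
-/

namespace Vale.Agent.P224.R2.H206

open Vale.Agent.P224.R2.H869 Vale.Agent.P224.R2.H484 Vale.Agent.P224.R2.H919

/-- the positive terms of the inequality -/
def pL (S : Sm) : List TQ := nz (posL S.M S.c)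

/-- the negative terms of the inequality -/
def nL (S : Sm) : List TQ := nz (rowL S.M ++ psL S.j S.X2 S.X1 S.X0 S.z2 S.z1 S.z0)

/-- the numbers fit together: `R` is the end of the range of `ρ`, in units of `1 / D` -/
def numOK (S : Sm) (T : Tb) (p : Pr) (R : ℕ) : Bool :=
  decide (0 < p.D) && Nat.beq T.Q (4 * p.D * p.D)
    && decide (S.M.lam ^ 2 * p.m2 * p.D ^ 2 ≤ (R : ℚ) ^ 2) && decide ((p.a0 : ℚ) ≤ S.a0 * T.Q)
    && decide (0 < p.m2)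

/-- **the pointwise inequality of a block** -/
theorem ptB {S : Sm} {T : Tb} {p : Pr} {R : ℕ} {cs : List ℕ} {b1 b2 : List ℚ}
    (hS : S.smlOK p.m2 b1 b2 = true) (hT : T.ok (pL S) (nL S) = true)
    (hn : numOK S T p R = true) (hr : run T p cs [⟨0, R, 0, 4 * R⟩] = true) {m : ℕ}
    (hm : m ≤ p.m2) : PtIneqB m S.M.lam (PS S.j S.X2 S.X1 S.X0 S.z2 S.z1 S.z0) S.M.row S.c := by
  intro ρ y φ hρ hρ2 hy hy4 hφ hφ2
  unfold numOK at hn
  simp only [Bool.and_eq_true, decide_eq_true_eq, Nat.beq_eq] at hn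
  obtain ⟨⟨⟨⟨hD, hQ⟩, hR⟩, ha0⟩, hm2⟩ := hn
  have hmm : (m : ℝ) ≤ p.m2 := by exact_mod_cast hm
  have hτ : 0 ≤ y * ρ - y ^ 2 / 4 := by nlinarith
  have hφ3 : φ ^ 2 ≤ (p.m2 : ℝ) * (y * ρ - y ^ 2 / 4) :=
    hφ2.trans (mul_le_mul_of_nonneg_right hmm hτ)
  have hD' : (0 : ℝ) < p.D := by exact_mod_cast hD
  have hR' : (S.M.lam : ℝ) ^ 2 * p.m2 * (p.D : ℝ) ^ 2 ≤ (R : ℝ) ^ 2 := by exact_mod_cast hR
  have h1 : (p.D : ℝ) * ρ ≤ R := by
    apply le_of_sq_le_sq _ (Nat.cast_nonneg R)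
    have h2 : ρ ^ 2 ≤ (S.M.lam : ℝ) ^ 2 * p.m2 :=
      hρ2.trans (mul_le_mul_of_nonneg_left hmm (sq_nonneg _))
    have h3 := mul_le_mul_of_nonneg_right h2 (sq_nonneg (p.D : ℝ))
    rw [mul_pow]
    linarith
  have hin : InB p.D ⟨0, R, 0, 4 * R⟩ ρ y := by
    refine ⟨?_, h1, ?_, ?_⟩
    · show ((0 : ℕ) : ℝ) ≤ _
      rw [Nat.cast_zero]
      positivity
    · show ((0 : ℕ) : ℝ) ≤ _
      rw [Nat.cast_zero]
      positivity
    · show _ ≤ ((4 * R : ℕ) : ℝ)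
      push_cast
      nlinarith
  refine run_sound hT hD hQ (Z := fun ρ y φ =>
    PS S.j S.X2 S.X1 S.X0 S.z2 S.z1 S.z0 (y + (1 - ρ) ^ 2) (if 1 ≤ ρ then y else y + (1 - ρ) ^ 2) φ
      ≤ S.c * (y + (1 - ρ) ^ 2) + S.M.row (y + (1 - ρ) ^ 2) (ρ ^ 2 - 1) φ) ?_ ?_ cs hr _
    (by simp) ρ y φ hin hρ hy hy4 hφ hφ3
  · intro ρ y φ _ _ _ _ _ h
    unfold nL pL at h
    rw [evQ_nz, evQ_nz] at h
    have := main_id S.M S.c S.j S.X2 S.X1 S.X0 S.z2 S.z1 S.z0 ρ y φ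
    linarith
  · intro ρ y φ k1 k2 _ k4 k5 k6
    refine sml_sound hS (Or.inr le_rfl) k1 k2 k4 k5 ?_
    have h3 : ((p.a0 : ℚ) : ℝ) ≤ ((S.a0 * T.Q : ℚ) : ℝ) := by exact_mod_cast ha0
    push_cast at h3
    have hQ0 : (0 : ℝ) < (T.Q : ℝ) := by
      rw [hQ]
      have : 0 < 4 * p.D * p.D := by positivity
      exact_mod_cast this
    have h4 : (T.Q : ℝ) * (y + (1 - ρ) ^ 2) ≤ T.Q * S.a0 := by linarith
    exact le_of_mul_le_mul_left h4 hQ0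

end Vale.Agent.P224.R2.H206
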