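import Vale.Agent.P224.R2.H206.Uni

/-!
Grouping of rational terms by the factors, packed groups.
-/

namespace Vale.Agent.P224.R2.H206

/-- add a coefficient at a position -/
def addAt (c : ℕ) : ℕ → List ℕ → List ℕ
  | 0, [] => [c]
  | 0, a :: l => Nat.add a c :: l
  | k + 1, [] => 0 :: addAt c k []
  | k + 1, a :: l => a :: addAt c k l

lemma evL_addAt (x : ℝ) (c k : ℕ) (l : List ℕ) : evL x (addAt c k l) = c * x ^ k + evL x l := by
  induction k generalizing l with
  | zero =>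
    cases l with
    | nil => simp [addAt, evL]
    | cons a l =>
      simp only [addAt, evL, Nat.add_eq]
      push_cast
      ring
  | succ k ih =>
    cases l with
    | nil =>
      simp only [addAt, evL, ih, pow_succ]
      push_cast
      ring
    | cons a l =>
      simp only [addAt, evL, ih, pow_succ]
      ring

/-- equality of factor lists -/
def eqE : List (ℕ × ℕ) → List (ℕ × ℕ) → Bool
  | [], [] => true
  | p :: l, p' :: l' => and (Nat.beq p.1 p'.1) (and (Nat.beq p.2 p'.2) (eqE l l'))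
  | _, _ => false

lemma eqE_eq : ∀ {l l' : List (ℕ × ℕ)}, eqE l l' = true → l = l'
  | [], [], _ => rfl
  | (a, b) :: l, (a', b') :: l', h => by
    simp only [eqE, Bool.and_eq_true, Nat.beq_eq] at h
    rw [h.1, h.2.1, eqE_eq h.2.2]
  | [], _ :: _, h => by simp [eqE] at h
  | _ :: _, [], h => by simp [eqE] at h

/-- insert a term -/
def insG (c : ℕ) (e : List (ℕ × ℕ)) (d k : ℕ) : List MT → List MT
  | [] => [⟨addAt c k [], e, d⟩]
  | g :: G => if eqE g.e e then ⟨addAt c k g.L, g.e, g.d⟩ :: G else g :: insG c e d k G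

/-- the value of the groups -/
noncomputable def evG (x : ℕ → ℝ) (u : ℝ) : List MT → ℝ
  | [] => 0
  | g :: G => prR x g.e * evL u g.L + evG x u G

lemma evG_insG (x : ℕ → ℝ) (u : ℝ) (c : ℕ) (e : List (ℕ × ℕ)) (d k : ℕ) (G : List MT) :
    evG x u (insG c e d k G) = c * prR x e * u ^ k + evG x u G := by
  induction G with
  | nil =>
    simp only [insG, evG, evL_addAt, evL]
    ring
  | cons g G ih =>
    simp only [insG]
    split_ifs with h
    · simp only [evG, evL_addAt, eqE_eq h]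
      ring
    · simp only [evG, ih]
      ring

/-- grouping -/
def grpG (f : ℚ → ℕ) (dm E kM : ℕ) : List TQ → List MT
  | [] => []
  | t :: l => insG (Nat.mul (f t.c) (Nat.pow E (kM - t.k))) t.e (dm - degE t.e) t.k (grpG f dm E kM l)

lemma evG_grpG_le {W dm E kM : ℕ} {x : ℕ → ℝ} (hx : ∀ i, 0 ≤ x i) {φ : ℝ} (hφ : 0 ≤ φ)
    {l : List TQ} (h : l.all (fun t => decide (0 ≤ t.c)) = true)
    (hk : l.all (fun t => Nat.ble t.k kM) = true) :
    evG x (E * φ) (grpG (flN W) dm E kM l) ≤ ((W : ℝ) * E ^ kM) * evQ x φ l := by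
  induction l with
  | nil => simp [grpG, evG, evQ]
  | cons t l ih =>
    simp only [List.all_cons, Bool.and_eq_true, decide_eq_true_eq, Nat.ble_eq] at h hk
    have h1 := ih h.2 (by simpa using hk.2)
    have h2 := flN_le (W := W) h.1
    have h3 := prR_nonneg hx t.e
    have e1 : (E : ℝ) ^ kM = (E : ℝ) ^ (kM - t.k) * (E : ℝ) ^ t.k := by
      rw [← pow_add]
      congr 1
      have := hk.1
      omega
    have h4 : (((flN W t.c : ℕ) : ℝ) * (E : ℝ) ^ (kM - t.k)) * prR x t.e * (E * φ) ^ t.k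
        ≤ ((W : ℝ) * (t.c : ℝ) * (E : ℝ) ^ (kM - t.k)) * prR x t.e * (E * φ) ^ t.k := by gcongr
    have h5 : ((W : ℝ) * (t.c : ℝ) * (E : ℝ) ^ (kM - t.k)) * prR x t.e * (E * φ) ^ t.k
        = ((W : ℝ) * E ^ kM) * ((t.c : ℝ) * prR x t.e * φ ^ t.k) := by
      rw [e1, mul_pow]
      ring
    simp only [grpG, evG_insG, evQ, Nat.mul_eq, Nat.pow_eq]
    push_cast
    rw [mul_add]
    linarith

lemma le_evG_grpG {W dm E kM : ℕ} {x : ℕ → ℝ} (hx : ∀ i, 0 ≤ x i) {φ : ℝ} (hφ : 0 ≤ φ)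
    {l : List TQ} (hk : l.all (fun t => Nat.ble t.k kM) = true) :
    ((W : ℝ) * E ^ kM) * evQ x φ l ≤ evG x (E * φ) (grpG (clN W) dm E kM l) := by
  induction l with
  | nil => simp [grpG, evG, evQ]
  | cons t l ih =>
    simp only [List.all_cons, Bool.and_eq_true, Nat.ble_eq] at hk
    have h1 := ih (by simpa using hk.2)
    have h2 := le_clN (W := W) (q := t.c)
    have h3 := prR_nonneg hx t.e
    have e1 : (E : ℝ) ^ kM = (E : ℝ) ^ (kM - t.k) * (E : ℝ) ^ t.k := by
      rw [← pow_add]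
      congr 1
      have := hk.1
      omega
    have h4 : ((W : ℝ) * (t.c : ℝ) * (E : ℝ) ^ (kM - t.k)) * prR x t.e * (E * φ) ^ t.k
        ≤ (((clN W t.c : ℕ) : ℝ) * (E : ℝ) ^ (kM - t.k)) * prR x t.e * (E * φ) ^ t.k := by gcongr
    have h5 : ((W : ℝ) * (t.c : ℝ) * (E : ℝ) ^ (kM - t.k)) * prR x t.e * (E * φ) ^ t.k
        = ((W : ℝ) * E ^ kM) * ((t.c : ℝ) * prR x t.e * φ ^ t.k) := by
      rw [e1, mul_pow]
      ring
    simp only [grpG, evG_insG, evQ, Nat.mul_eq, Nat.pow_eq]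
    push_cast
    rw [mul_add]
    linarith

lemma evL_flatR {Q : ℕ} (F : List ℕ) (g : MT) (G : List MT) (u : ℝ) :
    evL u (flat Q F (g :: G)) = (wt Q F g : ℝ) * evL u g.L + evL u (flat Q F G) := by
  simp only [flat, evL_addL, evL_smul]

/-- lower bounds of the features -/
lemma flat_le {Q dm : ℕ} (hQ : 0 < Q) {F : List ℕ} {x : ℕ → ℝ} (hx : ∀ i, 0 ≤ x i)
    (h : ∀ i, (nth F i : ℝ) ≤ Q * x i) {u : ℝ} (hu : 0 ≤ u) {G : List MT}
    (hd : G.all (fun g => Nat.beq (degE g.e + g.d) dm) = true) :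
    evL u (flat Q F G) ≤ (Q : ℝ) ^ dm * evG x u G := by
  induction G with
  | nil => simp [flat, evL, evG]
  | cons g G ih =>
    simp only [List.all_cons, Bool.and_eq_true, Nat.beq_eq] at hd
    have h1 := ih (by simpa using hd.2)
    have h2 := prd_le hQ hx h g.e
    have h4 := evL_nonneg hu g.L
    have h3 : (wt Q F g : ℝ) * evL u g.L ≤ (Q : ℝ) ^ dm * (prR x g.e * evL u g.L) := by
      unfold wt
      rw [Nat.mul_eq, Nat.pow_eq, Nat.cast_mul, Nat.cast_pow, ← hd.1, pow_add, ← mul_assoc]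
      refine mul_le_mul_of_nonneg_right ?_ h4
      have := mul_le_mul_of_nonneg_right h2 (pow_nonneg (Nat.cast_nonneg (α := ℝ) Q) g.d)
      linarith
    rw [evL_flatR]
    simp only [evG]
    rw [mul_add]
    linarith

/-- upper bounds of the features -/
lemma le_flat {Q dm : ℕ} (hQ : 0 < Q) {F : List ℕ} {x : ℕ → ℝ} (hx : ∀ i, 0 ≤ x i)
    (h : ∀ i, Q * x i ≤ (nth F i : ℝ)) {u : ℝ} (hu : 0 ≤ u) {G : List MT}
    (hd : G.all (fun g => Nat.beq (degE g.e + g.d) dm) = true) :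
    (Q : ℝ) ^ dm * evG x u G ≤ evL u (flat Q F G) := by
  induction G with
  | nil => simp [flat, evL, evG]
  | cons g G ih =>
    simp only [List.all_cons, Bool.and_eq_true, Nat.beq_eq] at hd
    have h1 := ih (by simpa using hd.2)
    have h2 := le_prd hQ hx h g.e
    have h4 := evL_nonneg hu g.L
    have h3 : (Q : ℝ) ^ dm * (prR x g.e * evL u g.L) ≤ (wt Q F g : ℝ) * evL u g.L := by
      unfold wt
      rw [Nat.mul_eq, Nat.pow_eq, Nat.cast_mul, Nat.cast_pow, ← hd.1, pow_add, ← mul_assoc]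
      refine mul_le_mul_of_nonneg_right ?_ h4
      have := mul_le_mul_of_nonneg_right h2 (pow_nonneg (Nat.cast_nonneg (α := ℝ) Q) g.d)
      linarith
    rw [evL_flatR]
    simp only [evG]
    rw [mul_add]
    linarith

/-- a packed group -/
structure PK where
  K : ℕ
  e : List (ℕ × ℕ)
  d : ℕ

/-- the value of the packed groups -/
def pkv (Q : ℕ) (F : List ℕ) : List PK → ℕ
  | [] => 0
  | g :: G => Nat.add (Nat.mul (Nat.mul (prd F g.e) (Nat.pow Q g.d)) g.K) (pkv Q F G)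

/-- comparison of the packed groups with the values -/
def pkP (B : ℕ) : List PK → List MT → Bool
  | [], [] => true
  | k :: K, g :: G => and (Nat.beq k.K (pv g.L B)) (and (eqE k.e g.e) (and (Nat.beq k.d g.d) (pkP B K G)))
  | _, _ => false

/-- comparison of the packed groups with the values of the derivative -/
def pkD (B : ℕ) : List PK → List MT → Bool
  | [], [] => true
  | k :: K, g :: G => and (Nat.beq k.K (dv g.L B)) (and (eqE k.e g.e) (and (Nat.beq k.d g.d) (pkD B K G)))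
  | _, _ => false

lemma pkv_P {B Q : ℕ} {F : List ℕ} : ∀ {K : List PK} {G : List MT}, pkP B K G = true →
    pkv Q F K = pvG Q F B G
  | [], [], _ => rfl
  | k :: K, g :: G, h => by
    simp only [pkP, Bool.and_eq_true, Nat.beq_eq] at h
    simp only [pkv, pvG, wt, pkv_P h.2.2.2, h.1, eqE_eq h.2.1, h.2.2.1]
  | [], _ :: _, h => by simp [pkP] at h
  | _ :: _, [], h => by simp [pkP] at h

lemma pkv_D {B Q : ℕ} {F : List ℕ} : ∀ {K : List PK} {G : List MT}, pkD B K G = true →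
    pkv Q F K = dvG Q F B G
  | [], [], _ => rfl
  | k :: K, g :: G, h => by
    simp only [pkD, Bool.and_eq_true, Nat.beq_eq] at h
    simp only [pkv, dvG, wt, pkv_D h.2.2.2, h.1, eqE_eq h.2.1, h.2.2.1]
  | [], _ :: _, h => by simp [pkD] at h
  | _ :: _, [], h => by simp [pkD] at h

/-- comparison of lists of length 8 -/
def leL : List ℕ → List ℕ → Bool
  | [], _ => true
  | a :: l, b :: l' => and (Nat.ble a b) (leL l l')
  | _ :: _, [] => false

lemma leL_nth : ∀ {l l' : List ℕ}, leL l l' = true → ∀ i, nth l i ≤ nth l' i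
  | [], _, _, _ => by simp [nth]
  | a :: l, b :: l', h, 0 => by
    simp only [leL, Bool.and_eq_true, Nat.ble_eq] at h
    simpa [nth] using h.1
  | a :: l, b :: l', h, i + 1 => by
    simp only [leL, Bool.and_eq_true, Nat.ble_eq] at h
    simpa [nth] using leL_nth h.2 i
  | _ :: _, [], h, _ => by simp [leL] at h

/-- the tables of a block -/
structure Tb where
  W : ℕ
  E : ℕ
  B : ℕ
  dm : ℕ
  kM : ℕ
  Q : ℕ
  Fm : List ℕ
  ws : List ℕ
  fu : ℕ
  PN : List PK
  PP : List PK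
  PD : List PK

namespace Tb

variable (T : Tb)

/-- the upper end of the range of `φ` -/
def U : ℕ := T.ws.sum

/-- the groups of the negative and of the positive terms -/
def N (n : List TQ) : List MT := grpG (clN T.W) T.dm T.E T.kM n

def P (p : List TQ) : List MT := grpG (flN T.W) T.dm T.E T.kM p

/-- the tables fit to the lists of terms -/
def ok (p n : List TQ) : Bool :=
  let gn := T.N n
  let gp := T.P p
  decide (0 < T.W) && decide (0 < T.E) && decide (0 < T.Q)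
    && p.all (fun t => decide (0 ≤ t.c)) && p.all (fun t => Nat.ble t.k T.kM)
    && n.all (fun t => Nat.ble t.k T.kM)
    && gn.all (fun g => Nat.beq (degE g.e + g.d) T.dm)
    && gp.all (fun g => Nat.beq (degE g.e + g.d) T.dm)
    && pkP T.B T.PN gn && pkP T.B T.PP gp && pkD T.B T.PD gp
    && decide (pvG T.Q T.Fm T.U gn + T.U < T.B) && decide (pvG T.Q T.Fm T.U gp + T.U < T.B)
    && decide (dvG T.Q T.Fm T.U gp + T.U < T.B)

/-- the check of one box: bounds of the features, bound of `(E φ)²` -/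
def chk (Fh Fl : List ℕ) (X : ℕ) : Bool :=
  and (leL Fh T.Fm) (and (leL Fl T.Fm)
    (bisL T.B (pkv T.Q Fh T.PN) (pkv T.Q Fl T.PP) (pkv T.Q Fl T.PD) X T.fu T.ws 0))

variable {T}

/-- **one box** -/
theorem chk_sound {p n : List TQ} (hT : T.ok p n = true) {Fh Fl : List ℕ} {X : ℕ}
    (h : T.chk Fh Fl X = true) {x : ℕ → ℝ} (hx : ∀ i, 0 ≤ x i)
    (hlo : ∀ i, (nth Fl i : ℝ) ≤ T.Q * x i) (hhi : ∀ i, T.Q * x i ≤ (nth Fh i : ℝ)) {φ : ℝ}
    (hφ : 0 ≤ φ) (hX : ((T.E : ℝ) * φ) ^ 2 ≤ X) : evQ x φ n ≤ evQ x φ p := by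
  unfold ok at hT
  simp only [Bool.and_eq_true, decide_eq_true_eq] at hT
  obtain ⟨⟨⟨⟨⟨⟨⟨⟨⟨⟨⟨⟨⟨hW, hE⟩, hQ⟩, hp0⟩, hpk⟩, hnk⟩, hnd⟩, hpd⟩, h1⟩, h2⟩, h3⟩, h4⟩, h5⟩, h6⟩ := hT
  unfold chk at h
  simp only [Bool.and_eq_true] at h
  obtain ⟨hFh, hFl, h⟩ := h
  have hu : 0 ≤ (T.E : ℝ) * φ := by positivity
  have a1 : ∀ u ≤ T.U, pkv T.Q Fh T.PN % (T.B - u) = pv (flat T.Q Fh (T.N n)) u := by
    intro u hu
    rw [pkv_P h1, pvG_mod (leL_nth hFh) h4 hu]
    have := evL_flat T.Q Fh (T.N n) u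
    rw [evL_cast] at this
    exact_mod_cast this.symm
  have a2 : ∀ u ≤ T.U, pkv T.Q Fl T.PP % (T.B - u) = pv (flat T.Q Fl (T.P p)) u := by
    intro u hu
    rw [pkv_P h2, pvG_mod (leL_nth hFl) h5 hu]
    have := evL_flat T.Q Fl (T.P p) u
    rw [evL_cast] at this
    exact_mod_cast this.symm
  have a3 : ∀ u ≤ T.U, pkv T.Q Fl T.PD % (T.B - u) = dv (flat T.Q Fl (T.P p)) u := by
    intro u hu
    rw [pkv_D h3, dvG_mod (leL_nth hFl) h6 hu]
    have := dvR_flat T.Q Fl (T.P p) u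
    rw [dvR_cast] at this
    exact_mod_cast this.symm
  have b := bisL_sound a1 a2 a3 T.fu T.ws (l := 0) (by simp [U]) h
    (x := (T.E : ℝ) * φ) (by simpa using hu) hX
  have c1 := flat_le hQ hx hlo hu hpd
  have c2 := le_flat hQ hx hhi hu hnd
  have c3 := evG_grpG_le (W := T.W) (dm := T.dm) (E := T.E) hx hφ hp0 hpk
  have c4 := le_evG_grpG (W := T.W) (dm := T.dm) (E := T.E) hx hφ hnk
  have hQ' : (0 : ℝ) < (T.Q : ℝ) ^ T.dm := by
    have : (0 : ℝ) < (T.Q : ℝ) := by exact_mod_cast hQ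
    positivity
  have hW' : (0 : ℝ) < (T.W : ℝ) * (T.E : ℝ) ^ T.kM := by
    have h1 : (0 : ℝ) < (T.W : ℝ) := by exact_mod_cast hW
    have h2 : (0 : ℝ) < (T.E : ℝ) := by exact_mod_cast hE
    positivity
  have d1 : (T.Q : ℝ) ^ T.dm * evG x (T.E * φ) (T.N n)
      ≤ (T.Q : ℝ) ^ T.dm * evG x (T.E * φ) (T.P p) := by linarith
  have d2 := le_of_mul_le_mul_left d1 hQ'
  exact le_of_mul_le_mul_left (c4.trans (d2.trans c3)) hW'

end Tb

end Vale.Agent.P224.R2.H206
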