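import Vale.Agent.P224.R2.H206.Box
import Vale.Agent.P224.R2.H869.TlQ
import Vale.Agent.P224.R2.H484.TlS

/-!
The pointwise inequality as a comparison of two lists of terms.
-/

namespace Vale.Agent.P224.R2.H206

open Vale.Agent.P224.R2.H869 Vale.Agent.P224.R2.H484

/-- the positive terms -/
def posL (M : Mult) (c : ℚ) : List TQ :=
  [⟨c - M.wP * M.c1, [(0, 1)], 0⟩, ⟨M.wP, [], 2⟩, ⟨M.wX * (1 - M.th), [(7, 2)], 2⟩]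
  ++ ((List.range M.wF.length).flatMap (fun i => [⟨M.wF.getD i 0, [], 2 * i + 2⟩])
  ++ ((List.range M.wQ.length).flatMap (fun k => [⟨M.wQ.getD k 0, [(7, 2 * k + 2)], 0⟩])
  ++ ((List.range M.wR0.length).flatMap (fun l => [⟨M.wR0.getD l 0, [(3, 3), (5, l)], 0⟩])
  ++ (List.range M.wR1.length).flatMap (fun l => [⟨M.wR1.getD l 0, [(3, 4), (5, l)], 0⟩]))))

/-- the terms of the one point function -/
def psL (j : ℕ) (X2 X1 X0 : ℕ → ℕ → ℚ) (z2 z1 z0 : ℚ) : List TQ :=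
  [⟨z2, [(0, 1), (2, 0)], 0⟩, ⟨z1, [(1, 1), (2, 0)], 1⟩, ⟨z0, [(2, 0)], 2⟩]
  ++ (List.range (j + 2)).flatMap (fun i => (List.range (i + 1)).flatMap (fun k =>
    [⟨X2 i k, [(0, 1), (2, k)], j + 1 - i + 2 * (i - k)⟩,
      ⟨X1 i k, [(1, 1), (2, k)], j + 1 - i + 2 * (i - k) + 1⟩,
      ⟨X0 i k, [(2, k)], j + 1 - i + 2 * (i - k) + 2⟩]))

/-- the negative terms of the rows -/
def rowL (M : Mult) : List TQ :=
  [⟨M.wX * M.lam ^ 2, [(3, 1)], 2⟩, ⟨M.wX * (M.lam ^ 2 + M.eta), [(4, 1)], 2⟩,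
    ⟨M.wX * (4 * M.lam ^ 2 / M.th), [(6, 1), (5, 1)], 0⟩, ⟨M.wX * (2 * M.lam ^ 2), [(5, 1)], 2⟩]
  ++ ((List.range M.wF.length).flatMap (fun i =>
    [⟨M.wF.getD i 0 * (4 * i + 2), [(6, 1)], 2 * i⟩,
      ⟨M.wF.getD i 0 * (2 * M.lam), [(2, 0)], 2 * i + 1⟩])
  ++ ((List.range M.wQ.length).flatMap (fun k =>
    [⟨M.wQ.getD k 0 * ((4 * k + 2) * M.lam ^ 2), [(7, 2 * k), (5, 1)], 0⟩,
      ⟨M.wQ.getD k 0 * M.lam ^ 2, [(3, 2 * k + 1)], 0⟩,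
      ⟨M.wQ.getD k 0 * (M.lam ^ 2 + M.eta), [(4, 2 * k + 1)], 0⟩])
  ++ ((List.range M.wR0.length).flatMap (fun l =>
    [⟨M.wR0.getD l 0 * ((1 + 2 * l) * M.lam ^ 2), [(3, 2), (5, l)], 0⟩,
      ⟨M.wR0.getD l 0 * (4 * M.lam ^ 2), [(3, 1), (5, l + 1)], 0⟩])
  ++ (List.range M.wR1.length).flatMap (fun l =>
    [⟨M.wR1.getD l 0 * ((1 + 2 * l) * M.lam ^ 2), [(3, 3), (5, l)], 0⟩,
      ⟨M.wR1.getD l 0 * (6 * M.lam ^ 2), [(3, 2), (5, l + 1)], 0⟩]))))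

/-- without the zero terms -/
def nz (l : List TQ) : List TQ := l.filter (fun t => !(t.c.num == 0))

lemma evQ_nz (x : ℕ → ℝ) (φ : ℝ) (l : List TQ) : evQ x φ (nz l) = evQ x φ l := by
  induction l with
  | nil => rfl
  | cons t l ih =>
    unfold nz at ih ⊢
    by_cases h : t.c.num = 0
    · have h0 : t.c = 0 := Rat.zero_of_num_zero h
      rw [List.filter_cons_of_neg (by simp [h]), ih]
      simp [evQ, h0]
    · rw [List.filter_cons_of_pos (by simp [h])]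
      simp only [evQ, ih]

lemma posL_nonneg : True := trivial

variable {ρ y φ : ℝ}

lemma pos_ev (M : Mult) (c : ℚ) (ρ y φ : ℝ) :
    evQ (ftr ρ y) φ (posL M c) = ((c : ℝ) - M.wP * M.c1) * (y + (1 - ρ) ^ 2) + M.wP * φ ^ 2
      + M.wX * (1 - M.th) * ((ρ ^ 2 - 1) ^ 2 * φ ^ 2)
      + (∑ i ∈ Finset.range M.wF.length, ((M.wF.getD i 0 : ℚ) : ℝ) * φ ^ (2 * i + 2))
      + (∑ i ∈ Finset.range M.wQ.length, ((M.wQ.getD i 0 : ℚ) : ℝ) * (ρ ^ 2 - 1) ^ (2 * i + 2))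
      + (∑ i ∈ Finset.range M.wR0.length, ((M.wR0.getD i 0 : ℚ) : ℝ)
          * (max (ρ ^ 2 - 1) 0 ^ 3 * (ρ ^ 2) ^ i))
      + ∑ i ∈ Finset.range M.wR1.length, ((M.wR1.getD i 0 : ℚ) : ℝ)
          * (max (ρ ^ 2 - 1) 0 ^ 4 * (ρ ^ 2) ^ i) := by
  unfold posL
  simp only [evQ_append, evQ_range, evQ, prR, ftr, add_zero, mul_one, pow_zero, pow_one, sq_abs]
  have e : ∀ i : ℕ, |ρ ^ 2 - 1| ^ (2 * i + 2) = (ρ ^ 2 - 1) ^ (2 * i + 2) := fun i =>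
    Even.pow_abs ⟨i + 1, by ring⟩ _
  simp only [e]
  push_cast
  ring

lemma ps_ev (j : ℕ) (X2 X1 X0 : ℕ → ℕ → ℚ) (z2 z1 z0 : ℚ) (ρ y φ : ℝ) :
    evQ (ftr ρ y) φ (psL j X2 X1 X0 z2 z1 z0) = PS j X2 X1 X0 z2 z1 z0 (y + (1 - ρ) ^ 2)
      (if 1 ≤ ρ then y else y + (1 - ρ) ^ 2) φ := by
  unfold psL PS
  simp only [evQ_append, evQ_range, evQ, prR, ftr, add_zero, mul_one, pow_zero, pow_one]
  rw [add_comm]
  congr 1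
  · refine Finset.sum_congr rfl fun i _ => Finset.sum_congr rfl fun k _ => ?_
    ring
  · ring

lemma row_ev (M : Mult) (ρ y φ : ℝ) :
    evQ (ftr ρ y) φ (rowL M) =
      M.wX * (M.lam ^ 2 * (max (ρ ^ 2 - 1) 0 * φ ^ 2)
        + (M.lam ^ 2 + M.eta) * (max (-(ρ ^ 2 - 1)) 0 * φ ^ 2)
        + 4 * M.lam ^ 2 / M.th * ((y * ρ - y ^ 2 / 4) * ρ ^ 2) + 2 * M.lam ^ 2 * (ρ ^ 2 * φ ^ 2))
      + (∑ i ∈ Finset.range M.wF.length, ((M.wF.getD i 0 : ℚ) : ℝ) *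
          ((4 * i + 2) * (y * ρ - y ^ 2 / 4) * φ ^ (2 * i) + 2 * M.lam * φ ^ (2 * i + 1)))
      + (∑ k ∈ Finset.range M.wQ.length, ((M.wQ.getD k 0 : ℚ) : ℝ) *
          ((4 * k + 2) * M.lam ^ 2 * ((ρ ^ 2 - 1) ^ (2 * k) * ρ ^ 2)
            + M.lam ^ 2 * max (ρ ^ 2 - 1) 0 ^ (2 * k + 1)
            + (M.lam ^ 2 + M.eta) * max (-(ρ ^ 2 - 1)) 0 ^ (2 * k + 1)))
      + (∑ l ∈ Finset.range M.wR0.length, ((M.wR0.getD l 0 : ℚ) : ℝ) *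
          ((1 + 2 * l) * M.lam ^ 2 * (max (ρ ^ 2 - 1) 0 ^ 2 * (ρ ^ 2) ^ l)
            + 4 * M.lam ^ 2 * (max (ρ ^ 2 - 1) 0 * (ρ ^ 2) ^ (l + 1))))
      + ∑ l ∈ Finset.range M.wR1.length, ((M.wR1.getD l 0 : ℚ) : ℝ) *
          ((1 + 2 * l) * M.lam ^ 2 * (max (ρ ^ 2 - 1) 0 ^ 3 * (ρ ^ 2) ^ l)
            + 6 * M.lam ^ 2 * (max (ρ ^ 2 - 1) 0 ^ 2 * (ρ ^ 2) ^ (l + 1))) := by
  unfold rowL
  simp only [evQ_append, evQ_range, evQ, prR, ftr, add_zero, mul_one, pow_zero, pow_one]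
  have e : ∀ i : ℕ, |ρ ^ 2 - 1| ^ (2 * i) = (ρ ^ 2 - 1) ^ (2 * i) := fun i =>
    Even.pow_abs ⟨i, by ring⟩ _
  simp only [e]
  have s1 : ∀ (n : ℕ) (f g : ℕ → ℝ), (∀ i, f i = g i) →
      ∑ i ∈ Finset.range n, f i = ∑ i ∈ Finset.range n, g i :=
    fun n f g h => Finset.sum_congr rfl fun i _ => h i
  have s2 : ∀ {A A' B B' C C' D D' E E' : ℝ}, A = A' → B = B' → C = C' → D = D' → E = E' →
      A + (B + (C + (D + E))) = A' + B' + C' + D' + E' := by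
    intro A A' B B' C C' D D' E E' h1 h2 h3 h4 h5
    rw [h1, h2, h3, h4, h5]
    ring
  refine s2 ?_ (s1 _ _ _ fun i => ?_) (s1 _ _ _ fun i => ?_) (s1 _ _ _ fun i => ?_)
    (s1 _ _ _ fun i => ?_)
  · push_cast
    ring
  · push_cast
    ring
  · push_cast
    ring
  · push_cast
    ring
  · push_cast
    ring

/-- **the lists describe the inequality** -/
theorem main_id (M : Mult) (c : ℚ) (j : ℕ) (X2 X1 X0 : ℕ → ℕ → ℚ) (z2 z1 z0 : ℚ) (ρ y φ : ℝ) :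
    c * (y + (1 - ρ) ^ 2) + M.row (y + (1 - ρ) ^ 2) (ρ ^ 2 - 1) φ
      - PS j X2 X1 X0 z2 z1 z0 (y + (1 - ρ) ^ 2) (if 1 ≤ ρ then y else y + (1 - ρ) ^ 2) φ
    = evQ (ftr ρ y) φ (posL M c)
      - evQ (ftr ρ y) φ (rowL M ++ psL j X2 X1 X0 z2 z1 z0) := by
  rw [evQ_append, ps_ev, pos_ev, row_ev]
  unfold Mult.row Mult.cmb
  have eτ : y + (1 - ρ) ^ 2 - (y + (1 - ρ) ^ 2 - (ρ ^ 2 - 1)) ^ 2 / 4 = y * ρ - y ^ 2 / 4 := by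
    ring
  have e1 : (1 : ℝ) + (ρ ^ 2 - 1) = ρ ^ 2 := by ring
  have hF : (∑ i ∈ Finset.range M.wF.length, ((M.wF.getD i 0 : ℚ) : ℝ)
        * FF1 M.lam i (y + (1 - ρ) ^ 2) (ρ ^ 2 - 1) φ)
      = (∑ i ∈ Finset.range M.wF.length, ((M.wF.getD i 0 : ℚ) : ℝ) * φ ^ (2 * i + 2))
      - ∑ i ∈ Finset.range M.wF.length, ((M.wF.getD i 0 : ℚ) : ℝ) *
          ((4 * i + 2) * (y * ρ - y ^ 2 / 4) * φ ^ (2 * i) + 2 * M.lam * φ ^ (2 * i + 1)) := by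
    rw [← Finset.sum_sub_distrib]
    refine Finset.sum_congr rfl fun i _ => ?_
    unfold FF1
    rw [eτ]
    ring
  have hQ : (∑ i ∈ Finset.range M.wQ.length, ((M.wQ.getD i 0 : ℚ) : ℝ)
        * QQ1 M.lam M.eta i (ρ ^ 2 - 1))
      = (∑ i ∈ Finset.range M.wQ.length, ((M.wQ.getD i 0 : ℚ) : ℝ) * (ρ ^ 2 - 1) ^ (2 * i + 2))
      - ∑ k ∈ Finset.range M.wQ.length, ((M.wQ.getD k 0 : ℚ) : ℝ) *
          ((4 * k + 2) * M.lam ^ 2 * ((ρ ^ 2 - 1) ^ (2 * k) * ρ ^ 2)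
            + M.lam ^ 2 * max (ρ ^ 2 - 1) 0 ^ (2 * k + 1)
            + (M.lam ^ 2 + M.eta) * max (-(ρ ^ 2 - 1)) 0 ^ (2 * k + 1)) := by
    rw [← Finset.sum_sub_distrib]
    refine Finset.sum_congr rfl fun i _ => ?_
    unfold QQ1
    rw [e1]
    ring
  have hR0 : (∑ i ∈ Finset.range M.wR0.length, ((M.wR0.getD i 0 : ℚ) : ℝ)
        * RR1 M.lam 0 i (ρ ^ 2 - 1))
      = (∑ i ∈ Finset.range M.wR0.length, ((M.wR0.getD i 0 : ℚ) : ℝ)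
          * (max (ρ ^ 2 - 1) 0 ^ 3 * (ρ ^ 2) ^ i))
      - ∑ l ∈ Finset.range M.wR0.length, ((M.wR0.getD l 0 : ℚ) : ℝ) *
          ((1 + 2 * l) * M.lam ^ 2 * (max (ρ ^ 2 - 1) 0 ^ 2 * (ρ ^ 2) ^ l)
            + 4 * M.lam ^ 2 * (max (ρ ^ 2 - 1) 0 * (ρ ^ 2) ^ (l + 1))) := by
    rw [← Finset.sum_sub_distrib]
    refine Finset.sum_congr rfl fun i _ => ?_
    unfold RR1
    rw [e1]
    push_cast
    simp only [zero_add, pow_one]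
    ring
  have hR1 : (∑ i ∈ Finset.range M.wR1.length, ((M.wR1.getD i 0 : ℚ) : ℝ)
        * RR1 M.lam 1 i (ρ ^ 2 - 1))
      = (∑ i ∈ Finset.range M.wR1.length, ((M.wR1.getD i 0 : ℚ) : ℝ)
          * (max (ρ ^ 2 - 1) 0 ^ 4 * (ρ ^ 2) ^ i))
      - ∑ l ∈ Finset.range M.wR1.length, ((M.wR1.getD l 0 : ℚ) : ℝ) *
          ((1 + 2 * l) * M.lam ^ 2 * (max (ρ ^ 2 - 1) 0 ^ 3 * (ρ ^ 2) ^ l)
            + 6 * M.lam ^ 2 * (max (ρ ^ 2 - 1) 0 ^ 2 * (ρ ^ 2) ^ (l + 1))) := by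
    rw [← Finset.sum_sub_distrib]
    refine Finset.sum_congr rfl fun i _ => ?_
    unfold RR1
    rw [e1]
    push_cast
    ring
  rw [hF, hQ, hR0, hR1]
  unfold XX1
  rw [eτ, e1]
  ring

end Vale.Agent.P224.R2.H206
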