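import Vale.Agent.P224.R2.H206.Cel

/-!
Polynomials with natural coefficients: values by reduction modulo `B - u`, tangent and chord.
-/

namespace Vale.Agent.P224.R2.H206

/-- the value at a natural number -/
def pv : List ℕ → ℕ → ℕ
  | [], _ => 0
  | c :: L, u => Nat.add c (Nat.mul u (pv L u))

/-- the value of the derivative at a natural number -/
def dv : List ℕ → ℕ → ℕ
  | [], _ => 0
  | _ :: L, u => Nat.add (pv L u) (Nat.mul u (dv L u))

/-- the value of the derivative at a real number -/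
noncomputable def dvR (x : ℝ) : List ℕ → ℝ
  | [] => 0
  | _ :: L => evL x L + x * dvR x L

lemma evL_cast (L : List ℕ) (u : ℕ) : evL (u : ℝ) L = ((pv L u : ℕ) : ℝ) := by
  induction L with
  | nil => simp [evL, pv]
  | cons c L ih => simp [evL, pv, ih]

lemma dvR_cast (L : List ℕ) (u : ℕ) : dvR (u : ℝ) L = ((dv L u : ℕ) : ℝ) := by
  induction L with
  | nil => simp [dvR, dv]
  | cons c L ih => simp [dvR, dv, ih, evL_cast]

lemma evL_nonneg {x : ℝ} (hx : 0 ≤ x) (L : List ℕ) : 0 ≤ evL x L := by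
  induction L with
  | nil => simp [evL]
  | cons c L ih => simp only [evL]; positivity

lemma dvR_nonneg {x : ℝ} (hx : 0 ≤ x) (L : List ℕ) : 0 ≤ dvR x L := by
  induction L with
  | nil => simp [dvR]
  | cons c L ih =>
    simp only [dvR]
    have := evL_nonneg hx L
    positivity

lemma evL_mono {x y : ℝ} (hx : 0 ≤ x) (hxy : x ≤ y) (L : List ℕ) : evL x L ≤ evL y L := by
  induction L with
  | nil => simp [evL]
  | cons c L ih =>
    simp only [evL]
    have h1 := evL_nonneg hx L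
    have h2 : x * evL x L ≤ y * evL y L := mul_le_mul hxy ih h1 (hx.trans hxy)
    linarith

/-- the tangent -/
lemma tangent {x m : ℝ} (hx : 0 ≤ x) (hm : 0 ≤ m) (L : List ℕ) :
    evL m L + dvR m L * (x - m) ≤ evL x L := by
  induction L with
  | nil => simp [evL, dvR]
  | cons c L ih =>
    simp only [evL, dvR]
    have h1 := mul_le_mul_of_nonneg_left ih hx
    have h2 := mul_nonneg (dvR_nonneg hm L) (sq_nonneg (x - m))
    nlinarith

/-- the chord -/
lemma chord {x a b : ℝ} (ha : 0 ≤ a) (hax : a ≤ x) (hxb : x ≤ b) (L : List ℕ) :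
    (b - a) * evL x L ≤ (b - x) * evL a L + (x - a) * evL b L := by
  induction L with
  | nil => simp [evL]
  | cons c L ih =>
    simp only [evL]
    have h1 := mul_le_mul_of_nonneg_left ih (ha.trans hax)
    have h2 := evL_mono ha (hax.trans hxb) L
    have h3 := mul_nonneg (mul_nonneg (sub_nonneg.2 hax) (sub_nonneg.2 hxb)) (sub_nonneg.2 h2)
    nlinarith

/-- one interval: tangent of `P` at `m` against the chord of `N` -/
lemma interval {a b m : ℝ} (ha : 0 ≤ a) (hab : a < b) (hm : 0 ≤ m) {P N : List ℕ}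
    (h1 : evL a N + dvR m P * (m - a) ≤ evL m P) (h2 : evL b N ≤ evL m P + dvR m P * (b - m))
    {x : ℝ} (hax : a ≤ x) (hxb : x ≤ b) : evL x N ≤ evL x P := by
  have h3 := tangent (ha.trans hax) hm P
  have h4 := chord ha hax hxb N
  have h5 := mul_le_mul_of_nonneg_left h1 (sub_nonneg.2 hxb)
  have h6 := mul_le_mul_of_nonneg_left h2 (sub_nonneg.2 hax)
  have h7 : (b - a) * evL x N ≤ (b - a) * evL x P := by
    have h8 := mul_le_mul_of_nonneg_left h3 (sub_nonneg.2 hab.le)
    nlinarith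
  exact le_of_mul_le_mul_left h7 (sub_pos.2 hab)

/-- congruence of the values -/
lemma pv_modEq {n a b : ℕ} (h : a ≡ b [MOD n]) (L : List ℕ) : pv L a ≡ pv L b [MOD n] := by
  induction L with
  | nil => exact Nat.ModEq.refl _
  | cons c L ih =>
    simp only [pv, Nat.add_eq, Nat.mul_eq]
    exact (Nat.ModEq.refl c).add (h.mul ih)

lemma dv_modEq {n a b : ℕ} (h : a ≡ b [MOD n]) (L : List ℕ) : dv L a ≡ dv L b [MOD n] := by
  induction L with
  | nil => exact Nat.ModEq.refl _
  | cons c L ih =>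
    simp only [dv, Nat.add_eq, Nat.mul_eq]
    exact (pv_modEq h L).add (h.mul ih)

lemma sub_modEq {B u : ℕ} (h : u ≤ B) : B ≡ u [MOD (B - u)] := by
  have h1 : B = u + (B - u) := by omega
  conv_lhs => rw [h1]
  simp [Nat.ModEq]

/-- groups of terms: coefficients in the powers of `φ`, factors, missing degree -/
structure MT where
  L : List ℕ
  e : List (ℕ × ℕ)
  d : ℕ

/-- the weight of a group -/
def wt (Q : ℕ) (F : List ℕ) (g : MT) : ℕ := Nat.mul (prd F g.e) (Nat.pow Q g.d)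

/-- the value of a list of groups -/
def pvG (Q : ℕ) (F : List ℕ) (u : ℕ) : List MT → ℕ
  | [] => 0
  | g :: G => Nat.add (Nat.mul (wt Q F g) (pv g.L u)) (pvG Q F u G)

/-- the value of the derivative -/
def dvG (Q : ℕ) (F : List ℕ) (u : ℕ) : List MT → ℕ
  | [] => 0
  | g :: G => Nat.add (Nat.mul (wt Q F g) (dv g.L u)) (dvG Q F u G)

/-- addition of lists -/
def addL : List ℕ → List ℕ → List ℕ
  | [], l => l
  | l, [] => l
  | a :: l, b :: l' => (a + b) :: addL l l'

/-- the coefficient list of a list of groups -/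
def flat (Q : ℕ) (F : List ℕ) : List MT → List ℕ
  | [] => []
  | g :: G => addL (g.L.map (fun c => wt Q F g * c)) (flat Q F G)

lemma evL_addL (x : ℝ) (l l' : List ℕ) : evL x (addL l l') = evL x l + evL x l' := by
  induction l generalizing l' with
  | nil => simp [addL, evL]
  | cons a l ih =>
    cases l' with
    | nil => simp [addL, evL]
    | cons b l' =>
      simp only [addL, evL, ih]
      push_cast
      ring

lemma dvR_addL (x : ℝ) (l l' : List ℕ) : dvR x (addL l l') = dvR x l + dvR x l' := by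
  induction l generalizing l' with
  | nil => simp [addL, dvR]
  | cons a l ih =>
    cases l' with
    | nil => simp [addL, dvR]
    | cons b l' =>
      simp only [addL, dvR, ih, evL_addL]
      ring

lemma evL_smul (x : ℝ) (w : ℕ) (l : List ℕ) : evL x (l.map (fun c => w * c)) = w * evL x l := by
  induction l with
  | nil => simp [evL]
  | cons a l ih =>
    simp only [List.map_cons, evL, ih]
    push_cast
    ring

lemma dvR_smul (x : ℝ) (w : ℕ) (l : List ℕ) : dvR x (l.map (fun c => w * c)) = w * dvR x l := by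
  induction l with
  | nil => simp [dvR]
  | cons a l ih =>
    simp only [List.map_cons, dvR, ih, evL_smul]
    ring

lemma evL_flat (Q : ℕ) (F : List ℕ) (G : List MT) (u : ℕ) :
    evL (u : ℝ) (flat Q F G) = ((pvG Q F u G : ℕ) : ℝ) := by
  induction G with
  | nil => simp [flat, evL, pvG]
  | cons g G ih =>
    simp only [flat, evL_addL, evL_smul, ih, pvG, evL_cast, Nat.add_eq, Nat.mul_eq]
    push_cast
    ring

lemma dvR_flat (Q : ℕ) (F : List ℕ) (G : List MT) (u : ℕ) :
    dvR (u : ℝ) (flat Q F G) = ((dvG Q F u G : ℕ) : ℝ) := by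
  induction G with
  | nil => simp [flat, dvR, dvG]
  | cons g G ih =>
    simp only [flat, dvR_addL, dvR_smul, ih, dvG, dvR_cast, Nat.add_eq, Nat.mul_eq]
    push_cast
    ring

lemma pvG_modEq {n a b : ℕ} (h : a ≡ b [MOD n]) (Q : ℕ) (F : List ℕ) (G : List MT) :
    pvG Q F a G ≡ pvG Q F b G [MOD n] := by
  induction G with
  | nil => exact Nat.ModEq.refl _
  | cons g G ih =>
    simp only [pvG, Nat.add_eq, Nat.mul_eq]
    exact ((Nat.ModEq.refl _).mul (pv_modEq h g.L)).add ih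

lemma dvG_modEq {n a b : ℕ} (h : a ≡ b [MOD n]) (Q : ℕ) (F : List ℕ) (G : List MT) :
    dvG Q F a G ≡ dvG Q F b G [MOD n] := by
  induction G with
  | nil => exact Nat.ModEq.refl _
  | cons g G ih =>
    simp only [dvG, Nat.add_eq, Nat.mul_eq]
    exact ((Nat.ModEq.refl _).mul (dv_modEq h g.L)).add ih

lemma pv_mono {a b : ℕ} (h : a ≤ b) (L : List ℕ) : pv L a ≤ pv L b := by
  induction L with
  | nil => simp [pv]
  | cons c L ih =>
    simp only [pv, Nat.add_eq, Nat.mul_eq]
    have := Nat.mul_le_mul h ih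
    omega

lemma dv_mono {a b : ℕ} (h : a ≤ b) (L : List ℕ) : dv L a ≤ dv L b := by
  induction L with
  | nil => simp [dv]
  | cons c L ih =>
    simp only [dv, Nat.add_eq, Nat.mul_eq]
    have h1 := Nat.mul_le_mul h ih
    have h2 := pv_mono h L
    omega

lemma prd_mono {F F' : List ℕ} (h : ∀ i, nth F i ≤ nth F' i) (l : List (ℕ × ℕ)) :
    prd F l ≤ prd F' l := by
  induction l with
  | nil => simp [prd]
  | cons p l ih =>
    simp only [prd, Nat.mul_eq, Nat.pow_eq]
    exact Nat.mul_le_mul (Nat.pow_le_pow_left (h _) _) ih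

lemma wt_mono {Q : ℕ} {F F' : List ℕ} (h : ∀ i, nth F i ≤ nth F' i) (g : MT) :
    wt Q F g ≤ wt Q F' g := by
  unfold wt
  exact Nat.mul_le_mul_right _ (prd_mono h _)

lemma pvG_mono {Q : ℕ} {F F' : List ℕ} (h : ∀ i, nth F i ≤ nth F' i) {a b : ℕ} (hab : a ≤ b)
    (G : List MT) : pvG Q F a G ≤ pvG Q F' b G := by
  induction G with
  | nil => simp [pvG]
  | cons g G ih =>
    simp only [pvG, Nat.add_eq, Nat.mul_eq]
    exact Nat.add_le_add (Nat.mul_le_mul (wt_mono h g) (pv_mono hab _)) ih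

lemma dvG_mono {Q : ℕ} {F F' : List ℕ} (h : ∀ i, nth F i ≤ nth F' i) {a b : ℕ} (hab : a ≤ b)
    (G : List MT) : dvG Q F a G ≤ dvG Q F' b G := by
  induction G with
  | nil => simp [dvG]
  | cons g G ih =>
    simp only [dvG, Nat.add_eq, Nat.mul_eq]
    exact Nat.add_le_add (Nat.mul_le_mul (wt_mono h g) (dv_mono hab _)) ih

/-- **the values modulo `B - u`** -/
lemma pvG_mod {Q B U : ℕ} {F F' : List ℕ} (h : ∀ i, nth F i ≤ nth F' i) {G : List MT}
    (hB : pvG Q F' U G + U < B) {u : ℕ} (hu : u ≤ U) :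
    (pvG Q F B G) % (B - u) = pvG Q F u G := by
  have h1 := pvG_mono (Q := Q) h hu G
  have h2 := pvG_modEq (sub_modEq (B := B) (u := u) (by omega)) Q F G
  rw [Nat.ModEq] at h2
  rw [h2, Nat.mod_eq_of_lt (by omega)]

lemma dvG_mod {Q B U : ℕ} {F F' : List ℕ} (h : ∀ i, nth F i ≤ nth F' i) {G : List MT}
    (hB : dvG Q F' U G + U < B) {u : ℕ} (hu : u ≤ U) :
    (dvG Q F B G) % (B - u) = dvG Q F u G := by
  have h1 := dvG_mono (Q := Q) h hu G
  have h2 := dvG_modEq (sub_modEq (B := B) (u := u) (by omega)) Q F G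
  rw [Nat.ModEq] at h2
  rw [h2, Nat.mod_eq_of_lt (by omega)]

lemma div_def' (a b : ℕ) : Nat.div a b = a / b := rfl

lemma mod_def' (a b : ℕ) : Nat.mod a b = a % b := rfl

/-- the test of an interval `[l, l + w]` -/
def tst (B nb pb pd l w : ℕ) : Bool :=
  let m := Nat.add l (Nat.div w 2)
  let c := Nat.sub B m
  let pm := Nat.mod pb c
  let dm := Nat.mod pd c
  and (Nat.ble (Nat.add (Nat.mod nb (Nat.sub B l)) (Nat.mul dm (Nat.sub m l))) pm)
    (Nat.ble (Nat.mod nb (Nat.sub B (Nat.add l w)))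
      (Nat.add pm (Nat.mul dm (Nat.sub (Nat.add l w) m))))

/-- bisection; intervals with `T < l²` are outside the range -/
def bis (B nb pb pd T : ℕ) : ℕ → ℕ → ℕ → Bool
  | 0, l, w => or (Nat.ble (Nat.succ T) (Nat.mul l l)) (tst B nb pb pd l w)
  | n + 1, l, w => or (Nat.ble (Nat.succ T) (Nat.mul l l)) (or (tst B nb pb pd l w)
      (and (Nat.ble 2 w) (and (bis B nb pb pd T n l (Nat.div w 2))
        (bis B nb pb pd T n (Nat.add l (Nat.div w 2)) (Nat.sub w (Nat.div w 2))))))

/-- consecutive intervals with given widths -/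
def bisL (B nb pb pd T f : ℕ) : List ℕ → ℕ → Bool
  | [], l => Nat.ble (Nat.succ T) (Nat.mul l l)
  | w :: ws, l => and (Nat.ble 1 w) (and (bis B nb pb pd T f l w) (bisL B nb pb pd T f ws (Nat.add l w)))

section

variable {B U : ℕ} {P N : List ℕ} {nb pb pd T : ℕ}

lemma tst_sound (hN : ∀ u ≤ U, nb % (B - u) = pv N u) (hP : ∀ u ≤ U, pb % (B - u) = pv P u)
    (hD : ∀ u ≤ U, pd % (B - u) = dv P u) {l w : ℕ} (hw : 1 ≤ w) (hU : l + w ≤ U)
    (h : tst B nb pb pd l w = true) {x : ℝ} (h1 : (l : ℝ) ≤ x) (h2 : x ≤ ((l + w : ℕ) : ℝ)) :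
    evL x N ≤ evL x P := by
  unfold tst at h
  simp only [Bool.and_eq_true, Nat.ble_eq, Nat.add_eq, Nat.mul_eq, Nat.sub_eq, div_def',
    mod_def'] at h
  have hm : l + w / 2 ≤ l + w := by omega
  rw [hN l (by omega), hN (l + w) hU, hP _ (by omega), hD _ (by omega)] at h
  obtain ⟨h3, h4⟩ := h
  have h3' : ((pv N l + dv P (l + w / 2) * (l + w / 2 - l) : ℕ) : ℝ) ≤ (pv P (l + w / 2) : ℕ) := by
    exact_mod_cast h3
  have h4' : ((pv N (l + w) : ℕ) : ℝ)
      ≤ ((pv P (l + w / 2) + dv P (l + w / 2) * (l + w - (l + w / 2)) : ℕ) : ℝ) := by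
    exact_mod_cast h4
  rw [Nat.cast_add, Nat.cast_mul, Nat.cast_sub (by omega)] at h3' h4'
  rw [← evL_cast, ← evL_cast, ← dvR_cast] at h3' h4'
  refine interval (a := (l : ℝ)) (b := ((l + w : ℕ) : ℝ)) (m := ((l + w / 2 : ℕ) : ℝ))
    (Nat.cast_nonneg _) (by exact_mod_cast (by omega : l < l + w)) (Nat.cast_nonneg _) h3' h4' h1 h2

lemma bis_sound (hN : ∀ u ≤ U, nb % (B - u) = pv N u) (hP : ∀ u ≤ U, pb % (B - u) = pv P u)
    (hD : ∀ u ≤ U, pd % (B - u) = dv P u) (n : ℕ) : ∀ {l w : ℕ}, 1 ≤ w → l + w ≤ U →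
    bis B nb pb pd T n l w = true → ∀ {x : ℝ}, (l : ℝ) ≤ x → x ≤ ((l + w : ℕ) : ℝ) →
    x ^ 2 ≤ T → evL x N ≤ evL x P := by
  have hout : ∀ {l : ℕ} {x : ℝ}, (l : ℝ) ≤ x → x ^ 2 ≤ T → ¬ (T + 1 ≤ l * l) := by
    intro l x h1 h2 h3
    have h4 : ((T + 1 : ℕ) : ℝ) ≤ ((l * l : ℕ) : ℝ) := by exact_mod_cast h3
    push_cast at h4
    nlinarith [Nat.cast_nonneg (α := ℝ) l]
  induction n with
  | zero =>
    intro l w hw hU h x h1 h2 h3
    simp only [bis, Bool.or_eq_true, Nat.ble_eq, Nat.mul_eq, Nat.succ_eq_add_one] at h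
    rcases h with h | h
    · exact absurd h (hout h1 h3)
    · exact tst_sound hN hP hD hw hU h h1 h2
  | succ n ih =>
    intro l w hw hU h x h1 h2 h3
    simp only [bis, Bool.or_eq_true, Bool.and_eq_true, Nat.ble_eq, Nat.mul_eq, Nat.add_eq,
      Nat.sub_eq, div_def', Nat.succ_eq_add_one] at h
    rcases h with h | h | ⟨h, h5, h6⟩
    · exact absurd h (hout h1 h3)
    · exact tst_sound hN hP hD hw hU h h1 h2
    · rcases le_total x ((l + w / 2 : ℕ) : ℝ) with hx | hx
      · exact ih (by omega) (by omega) h5 h1 hx h3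
      · refine ih (by omega) (by omega) h6 hx ?_ h3
        have : l + w / 2 + (w - w / 2) = l + w := by omega
        rw [this]
        exact h2

lemma bisL_sound (hN : ∀ u ≤ U, nb % (B - u) = pv N u) (hP : ∀ u ≤ U, pb % (B - u) = pv P u)
    (hD : ∀ u ≤ U, pd % (B - u) = dv P u) (f : ℕ) (ws : List ℕ) : ∀ {l : ℕ},
    l + ws.sum ≤ U → bisL B nb pb pd T f ws l = true → ∀ {x : ℝ}, (l : ℝ) ≤ x → 
    x ^ 2 ≤ T → evL x N ≤ evL x P := by
  induction ws with
  | nil =>
    intro l hU h x h1 h3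
    simp only [bisL, Nat.ble_eq, Nat.mul_eq, Nat.succ_eq_add_one] at h
    exfalso
    have h4 : ((T + 1 : ℕ) : ℝ) ≤ ((l * l : ℕ) : ℝ) := by exact_mod_cast h
    push_cast at h4
    nlinarith [Nat.cast_nonneg (α := ℝ) l]
  | cons w ws ih =>
    intro l hU h x h1 h3
    simp only [bisL, Bool.and_eq_true, Nat.ble_eq, Nat.add_eq] at h
    rw [List.sum_cons] at hU
    obtain ⟨h4, h5, h6⟩ := h
    rcases le_total x ((l + w : ℕ) : ℝ) with hx | hx
    · exact bis_sound hN hP hD f h4 (by omega) h5 h1 hx h3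
    · exact ih (by omega) h6 hx h3

end

end Vale.Agent.P224.R2.H206
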